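import Vale.Agent.P150.Defs

/-! General Ising weights, energies and entropies (definitions and basic facts). -/

namespace Vale.Agent.P150

open Finset Function

variable {ι : Type} [Fintype ι] [DecidableEq ι]

/-- the Ising weight with couplings `J` and field `h` -/
noncomputable def W (J : ι → ι → ℝ) (h : ι → ℝ) (x : ι → Bool) : ℝ :=
  Real.exp ((∑ i, ∑ j, J i j * sp (x i) * sp (x j)) / 2 + ∑ i, h i * sp (x i))

/-- the local field -/
noncomputable def HH (J : ι → ι → ℝ) (h : ι → ℝ) (i : ι) (x : ι → Bool) : ℝ :=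
  h i + ∑ j, J i j * sp (x j)

/-- the discrete derivative -/
noncomputable def DD (i : ι) (f : (ι → Bool) → ℝ) (x : ι → Bool) : ℝ :=
  (f (update x i true) - f (update x i false)) / 2

/-- the conditional mean given the other spins -/
noncomputable def Qw (w : (ι → Bool) → ℝ) (i : ι) (f : (ι → Bool) → ℝ) (x : ι → Bool) : ℝ :=
  (w (update x i true) * f (update x i true) + w (update x i false) * f (update x i false)) /
    (w (update x i true) + w (update x i false))

noncomputable def Dir (w f : (ι → Bool) → ℝ) : ℝ := ∑ i, ∑ x, w x * (f x - Qw w i f x) ^ 2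

noncomputable def Var (w f : (ι → Bool) → ℝ) : ℝ :=
  ∑ x, w x * f x ^ 2 - (∑ x, w x * f x) ^ 2 / ∑ x, w x

noncomputable def Ent (w f : (ι → Bool) → ℝ) : ℝ :=
  ∑ x, w x * (f x * Real.log (f x)) -
    (∑ x, w x * f x) * Real.log ((∑ x, w x * f x) / ∑ x, w x)

noncomputable def EntI (w : (ι → Bool) → ℝ) (i : ι) (f : (ι → Bool) → ℝ) : ℝ :=
  ∑ x, w x * (f x * (Real.log (f x) - Real.log (Qw w i f x)))

/-- one step of the discrete chain -/
noncomputable def PP (w f : (ι → Bool) → ℝ) (x : ι → Bool) : ℝ :=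
  (∑ i, Qw w i f x) / Fintype.card ι

structure Sym (J : ι → ι → ℝ) : Prop where
  symm : ∀ i j, J i j = J j i
  diag : ∀ i, J i i = 0

structure Good (lam δ : ℝ) (J : ι → ι → ℝ) : Prop where
  sym : Sym J
  up : ∀ u : ι → ℝ, ∑ i, ∑ j, J i j * u i * u j ≤ lam * ∑ i, u i ^ 2
  lo : ∀ u : ι → ℝ, -∑ i, u i ^ 2 ≤ ∑ i, ∑ j, J i j * u i * u j
  ent : ∀ i j, |J i j| ≤ δ
  row : ∀ i, ∑ j, J i j ^ 2 ≤ lam / 2

/-- the Poincare inequality -/
def PI (w : (ι → Bool) → ℝ) (γ : ℝ) : Prop := ∀ f, γ * Var w f ≤ Dir w f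

/-- approximate tensorisation of entropy -/
def AT (w : (ι → Bool) → ℝ) (C : ℝ) : Prop :=
  ∀ f : (ι → Bool) → ℝ, (∀ x, 0 < f x) → Ent w f ≤ C * ∑ i, EntI w i f

/-- entropic stability -/
def ES (w : (ι → Bool) → ℝ) (K : ℝ) : Prop :=
  ∀ f : (ι → Bool) → ℝ, (∀ x, 0 < f x) → ∑ x, w x * f x = ∑ x, w x →
    ∑ i, (∑ x, w x * (f x - 1) * sp (x i)) ^ 2 ≤ 2 * K * (∑ x, w x) * Ent w f

@[simp] lemma sp_true : sp true = 1 := rfl
@[simp] lemma sp_false : sp false = -1 := by simp [sp]
@[simp] lemma sp_sq (b : Bool) : sp b ^ 2 = 1 := by cases b <;> simp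
lemma sp_mul_self (b : Bool) : sp b * sp b = 1 := by cases b <;> simp
@[simp] lemma abs_sp (b : Bool) : |sp b| = 1 := by cases b <;> simp

omit [DecidableEq ι] in
lemma W_pos (J : ι → ι → ℝ) (h : ι → ℝ) (x : ι → Bool) : 0 < W J h x := Real.exp_pos _

lemma sum_pos' {w : (ι → Bool) → ℝ} (hw : ∀ x, 0 < w x) : 0 < ∑ x, w x :=
  sum_pos (fun x _ => hw x) univ_nonempty

/-- averaging over one spin -/
lemma sum_upd (i : ι) (G : (ι → Bool) → ℝ) :
    ∑ x, G x = (∑ x, (G (update x i true) + G (update x i false))) / 2 := by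
  have hi : Involutive fun x : ι → Bool => update x i (!x i) := fun x => by simp
  have h1 : ∑ x, G x = ∑ x, G (update x i (!x i)) := (Equiv.sum_comp hi.toPerm G).symm
  have h2 : ∀ x : ι → Bool, G (update x i true) + G (update x i false) =
      G x + G (update x i (!x i)) := fun x => by
    cases h : x i
    · rw [add_comm, ← h, update_eq_self, h]; rfl
    · conv_lhs => rw [← h, update_eq_self]
      rfl
  simp only [h2, sum_add_distrib, ← h1]
  ring

omit [Fintype ι] in
@[simp] lemma Qw_upd (w : (ι → Bool) → ℝ) (i : ι) (f : (ι → Bool) → ℝ) (x : ι → Bool) (b : Bool) :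
    Qw w i f (update x i b) = Qw w i f x := by simp [Qw]

omit [Fintype ι] in
@[simp] lemma DD_upd (i : ι) (f : (ι → Bool) → ℝ) (x : ι → Bool) (b : Bool) :
    DD i f (update x i b) = DD i f x := by simp [DD]

omit [Fintype ι] in
lemma Qw_pos {w f : (ι → Bool) → ℝ} (hw : ∀ x, 0 < w x) (hf : ∀ x, 0 < f x) (i : ι)
    (x : ι → Bool) : 0 < Qw w i f x :=
  div_pos (add_pos (mul_pos (hw _) (hf _)) (mul_pos (hw _) (hf _))) (add_pos (hw _) (hw _))

/-- the defining property of the conditional mean -/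
lemma sum_Qw {w : (ι → Bool) → ℝ} (hw : ∀ x, 0 < w x) (i : ι) (f : (ι → Bool) → ℝ)
    {c : (ι → Bool) → ℝ} (hc : ∀ x b, c (update x i b) = c x) :
    ∑ x, w x * (Qw w i f x * c x) = ∑ x, w x * (f x * c x) := by
  rw [sum_upd i, sum_upd i fun x => w x * (f x * c x)]
  congr 1
  refine sum_congr rfl fun x _ => ?_
  have := (add_pos (hw (update x i true)) (hw (update x i false))).ne'
  simp only [Qw_upd, hc]
  rw [← add_mul, Qw]
  field_simp

lemma HH_upd {J : ι → ι → ℝ} (h : ι → ℝ) (i j : ι) (x : ι → Bool) (b : Bool) :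
    HH J h i (update x j b) = HH J h i x + J i j * (sp b - sp (x j)) := by
  unfold HH
  rw [← add_sum_erase univ _ (mem_univ j), ← add_sum_erase univ (fun k => J i k * sp (x k))
    (mem_univ j), update_self, sum_congr rfl fun k hk => by rw [update_of_ne (ne_of_mem_erase hk)]]
  ring

lemma W_upd {J : ι → ι → ℝ} (hJ : Sym J) (h : ι → ℝ) (i : ι) (x : ι → Bool) (b : Bool) :
    W J h (update x i b) = W J h x * Real.exp ((sp b - sp (x i)) * HH J h i x) := by
  have e : ∀ k, sp (update x i b k) = sp (x k) + if k = i then sp b - sp (x i) else 0 := fun k => by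
    by_cases hk : k = i
    · subst hk; simp
    · simp [hk]
  have e2 : ∑ k, J k i * sp (x k) = ∑ k, J i k * sp (x k) :=
    sum_congr rfl fun k _ => by rw [hJ.symm]
  rw [W, W, ← Real.exp_add, HH]
  congr 1
  simp only [e, mul_add, add_mul, sum_add_distrib, mul_ite, ite_mul, mul_zero, zero_mul,
    sum_ite_eq', mem_univ, if_true, sum_ite_irrel, sum_const_zero, hJ.diag, ← sum_mul, e2]
  simp only [mul_right_comm _ (sp b - sp (x i)), ← sum_mul]
  ring

/-- the heat-bath formula -/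
lemma sub_Qw {J : ι → ι → ℝ} (hJ : Sym J) (h : ι → ℝ) (i : ι) (f : (ι → Bool) → ℝ)
    (x : ι → Bool) :
    f x - Qw (W J h) i f x = (sp (x i) - Real.tanh (HH J h i x)) * DD i f x := by
  have h0 := (W_pos J h x).ne'
  have h1 := Real.exp_pos (HH J h i x)
  have e : f x = f (update x i (x i)) := by rw [update_eq_self]
  rw [Qw, DD, W_upd hJ, W_upd hJ, Real.tanh_eq_sinh_div_cosh, Real.sinh_eq, Real.cosh_eq, e]
  generalize HH J h i x = H at h1 ⊢
  cases x i
  · simp only [sp_true, sp_false, sub_neg_eq_add, sub_self, zero_mul, Real.exp_zero, add_mul,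
      one_mul, Real.exp_add, Real.exp_neg]
    field_simp
    ring
  · simp only [sp_true, sp_false, sub_self, zero_mul, Real.exp_zero, sub_mul, one_mul, neg_mul,
      Real.exp_sub, Real.exp_neg]
    field_simp
    ring

omit [DecidableEq ι] in
lemma Good.smul {lam δ s : ℝ} {J : ι → ι → ℝ} (h : Good lam δ J) (hl : 0 ≤ lam) (h0 : 0 ≤ s)
    (h1 : s ≤ 1) : Good lam δ fun i j => s * J i j := by
  have e : ∀ u : ι → ℝ, ∑ i, ∑ j, s * J i j * u i * u j = s * ∑ i, ∑ j, J i j * u i * u j :=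
    fun u => by simp only [mul_sum, mul_assoc]
  have p : ∀ u : ι → ℝ, 0 ≤ ∑ i, u i ^ 2 := fun u => sum_nonneg fun _ _ => sq_nonneg _
  refine ⟨⟨fun i j => by rw [h.sym.symm], fun i => by rw [h.sym.diag, mul_zero]⟩, fun u => ?_,
    fun u => ?_, fun i j => ?_, fun i => ?_⟩
  · rw [e]
    nlinarith [mul_le_mul_of_nonneg_left (h.up u) h0, mul_nonneg hl (p u)]
  · rw [e]
    nlinarith [mul_le_mul_of_nonneg_left (h.lo u) h0, p u]
  · rw [abs_mul, abs_of_nonneg h0]
    exact (mul_le_of_le_one_left (abs_nonneg _) h1).trans (h.ent i j)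
  · simp only [mul_pow, ← mul_sum]
    exact (mul_le_of_le_one_left (sum_nonneg fun _ _ => sq_nonneg _)
      (pow_le_one₀ h0 h1)).trans (h.row i)

end Vale.Agent.P150
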