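import Mathlib

/-! The two-spin inequality (job Pair). -/

namespace Vale.Agent.P150

/-- the conditional mean of one spin given the other one -/
noncomputable def t1 (r θ τ : ℝ) : ℝ := (r + θ * τ) / (1 + r * θ * τ)

noncomputable def pG (r s θ α γ d σ τ : ℝ) : ℝ :=
  (1 + r * σ) * (1 + s * τ) * (1 + θ * σ * τ) *
    ((σ - t1 r θ τ) * (α + d * τ) * ((τ - t1 s θ σ) * (γ + d * σ)) +
      θ * ((1 - t1 r θ τ ^ 2) * (α + d * τ) * ((1 - t1 s θ σ ^ 2) * (γ + d * σ))) +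
      θ ^ 2 * (t1 r θ τ ^ 2 * ((1 - t1 r θ τ ^ 2) * (α + d * τ) ^ 2) +
        t1 s θ σ ^ 2 * ((1 - t1 s θ σ ^ 2) * (γ + d * σ) ^ 2)) +
      100 * |θ| ^ 3 * ((1 - t1 r θ τ ^ 2) * (α + d * τ) ^ 2 +
        (1 - t1 s θ σ ^ 2) * (γ + d * σ) ^ 2))

namespace PairA

lemma t1p (r θ : ℝ) : t1 r θ 1 = (r + θ) / (1 + r * θ) := by simp [t1]
lemma t1m (r θ : ℝ) : t1 r θ (-1) = (r - θ) / (1 - r * θ) := by simp [t1, sub_eq_add_neg]

/-- the polynomial identity for the cross term -/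
lemma cross_poly (r s θ A B d : ℝ) :
    (1 + r) * (1 + s) * (1 + θ) * ((1 - r) * (1 - θ) * (A * (1 - r * θ) + d * (1 - s)) *
      ((1 - s) * (1 - θ) * (B * (1 - s * θ) + d * (1 - r)))) +
    (1 + r) * (1 - s) * (1 - θ) * ((1 - r) * (1 + θ) * (A * (1 + r * θ) - d * (1 + s)) *
      (-((1 + s) * (1 + θ)) * (B * (1 - s * θ) + d * (1 - r)))) +
    (1 - r) * (1 + s) * (1 - θ) * (-((1 + r) * (1 + θ)) * (A * (1 - r * θ) + d * (1 - s)) *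
      ((1 - s) * (1 + θ) * (B * (1 + s * θ) - d * (1 + r)))) +
    (1 - r) * (1 - s) * (1 + θ) * (-((1 + r) * (1 - θ)) * (A * (1 + r * θ) - d * (1 + s)) *
      (-((1 + s) * (1 - θ)) * (B * (1 + s * θ) - d * (1 + r)))) =
    4 * (1 - r ^ 2) * (1 - s ^ 2) * (1 - θ ^ 2) * (1 - θ * r * s) * (d ^ 2 - θ * A * B) := by
  ring

lemma y_poly (r s θ A B d : ℝ) :
    (1 + r) * (1 + s) * (1 + θ) * ((1 - r * θ) * (A * (1 - r * θ) + d * (1 - s)) *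
      ((1 - s * θ) * (B * (1 - s * θ) + d * (1 - r)))) +
    (1 + r) * (1 - s) * (1 - θ) * ((1 + r * θ) * (A * (1 + r * θ) - d * (1 + s)) *
      ((1 - s * θ) * (B * (1 - s * θ) + d * (1 - r)))) +
    (1 - r) * (1 + s) * (1 - θ) * ((1 - r * θ) * (A * (1 - r * θ) + d * (1 - s)) *
      ((1 + s * θ) * (B * (1 + s * θ) - d * (1 + r)))) +
    (1 - r) * (1 - s) * (1 + θ) * ((1 + r * θ) * (A * (1 + r * θ) - d * (1 + s)) *
      ((1 + s * θ) * (B * (1 + s * θ) - d * (1 + r)))) =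
    4 * (θ * (1 - r ^ 2) * (1 - s ^ 2) * (1 + θ * r * s) * d ^ 2 -
      2 * θ ^ 2 * (1 - r ^ 2) * (1 - s ^ 2) * (r * A + s * B) * d +
      ((1 + (r * θ) ^ 2 - 2 * s * (r * θ)) * (1 + (s * θ) ^ 2 - 2 * r * (s * θ)) +
        θ * ((s * (1 + (r * θ) ^ 2) - 2 * (r * θ)) * (r * (1 + (s * θ) ^ 2) - 2 * (s * θ)))) *
          (A * B)) := by
  ring

lemma bd {a b A B : ℝ} (ha : |a| ≤ A) (hb : |b| ≤ B) : |a * b| ≤ A * B := by
  rw [abs_mul]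
  exact mul_le_mul ha hb (abs_nonneg _) ((abs_nonneg _).trans ha)

lemma N_bd {r s θ : ℝ} (hr : |r| ≤ 1) (hs : |s| ≤ 1) (hθ : |θ| ≤ 1 / 4) :
    |(1 - θ ^ 2) * ((1 + (r * θ) ^ 2 - 2 * s * (r * θ)) * (1 + (s * θ) ^ 2 - 2 * r * (s * θ)) +
        θ * ((s * (1 + (r * θ) ^ 2) - 2 * (r * θ)) * (r * (1 + (s * θ) ^ 2) - 2 * (s * θ)))) -
      (1 - 2 * θ * r * s) * ((1 - θ * r * s) * ((1 + r * θ) * (1 - r * θ)) *
        ((1 + s * θ) * (1 - s * θ)))| ≤ 4 * θ ^ 2 := by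
  have r2 : r ^ 2 ≤ 1 := (sq_le_one_iff_abs_le_one r).2 hr
  have s2 : s ^ 2 ≤ 1 := (sq_le_one_iff_abs_le_one s).2 hs
  have r0 := sq_nonneg r
  have s0 := sq_nonneg s
  have hy : |r * s| ≤ 1 := (bd hr hs).trans_eq (one_mul 1)
  obtain ⟨y, hy'⟩ : ∃ y, y = r * s := ⟨_, rfl⟩
  rw [← hy'] at hy
  have y2 : y ^ 2 ≤ 1 := (sq_le_one_iff_abs_le_one y).2 hy
  have y0 := sq_nonneg y
  have a0 : |2 * y ^ 2 - 1| ≤ 1 := abs_le.2 ⟨by linarith, by linarith⟩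
  have a1 : |y * (7 - 4 * r ^ 2 - 4 * s ^ 2)| ≤ 1 * 7 := bd hy (abs_le.2 ⟨by linarith, by linarith⟩)
  have a2 : |r ^ 2 + s ^ 2 + y ^ 2 * (2 * r ^ 2 + 2 * s ^ 2 - 8)| ≤ 8 :=
    abs_le.2 ⟨by nlinarith, by nlinarith⟩
  have a3 : |y * (4 * y ^ 2 + r ^ 2 + s ^ 2 - 4)| ≤ 1 * 4 :=
    bd hy (abs_le.2 ⟨by linarith, by linarith⟩)
  have a4 : |y ^ 2 * (3 - 2 * y ^ 2)| ≤ 3 := abs_le.2 ⟨by nlinarith, by nlinarith⟩
  have a5 : |-(y * y ^ 2)| ≤ 1 * 1 := by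
    rw [abs_neg]; exact bd hy (abs_le.2 ⟨by linarith, by linarith⟩)
  have b5 := (abs_add_le _ _).trans (add_le_add a4 (bd hθ a5))
  have b4 := (abs_add_le _ _).trans (add_le_add a3 (bd hθ b5))
  have b3 := (abs_add_le _ _).trans (add_le_add a2 (bd hθ b4))
  have b2 := (abs_add_le _ _).trans (add_le_add a1 (bd hθ b3))
  have b1 := (abs_add_le _ _).trans (add_le_add a0 (bd hθ b2))
  have b0 := bd (le_of_eq (abs_of_nonneg (sq_nonneg θ))) b1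
  subst hy'
  refine le_trans (le_of_eq (congrArg _ (by ring))) (b0.trans ?_)
  nlinarith [sq_nonneg θ]

lemma c1 {r s A B : ℝ} (r2 : r ^ 2 ≤ 1) (s2 : s ^ 2 ≤ 1) :
    (r * A + s * B) ^ 2 ≤ 2 * (A ^ 2 + B ^ 2) := by
  have := sq_nonneg (r * A - s * B)
  have := mul_le_mul_of_nonneg_right r2 (sq_nonneg A)
  have := mul_le_mul_of_nonneg_right s2 (sq_nonneg B)
  linarith

lemma c2 {P d w g : ℝ} (h : 0 ≤ P) (hg : 0 ≤ g) :
    -(P * w ^ 2) ≤ P * (d ^ 2 * (1 + g) - 2 * w * d) := by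
  have := mul_nonneg h (sq_nonneg (d - w))
  have := mul_nonneg h (mul_nonneg (sq_nonneg d) hg)
  linarith

lemma c3 {R A : ℝ} (R0 : 0 ≤ R) (R1 : R ≤ 1) : (R * A) ^ 2 ≤ R * A ^ 2 := by
  have := mul_le_mul_of_nonneg_right R1 (mul_nonneg R0 (sq_nonneg A))
  linarith

lemma c4 {r s a b x y : ℝ} (h1 : a ^ 2 ≤ x) (h2 : b ^ 2 ≤ y) :
    2 * (r * a) * (s * b) ≤ r ^ 2 * x + s ^ 2 * y := by
  have := mul_le_mul_of_nonneg_left h1 (sq_nonneg r)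
  have := mul_le_mul_of_nonneg_left h2 (sq_nonneg s)
  have := sq_nonneg (r * a - s * b)
  linarith

lemma c5 {a b x y : ℝ} (h1 : a ^ 2 ≤ x) (h2 : b ^ 2 ≤ y) : |a * b| ≤ (x + y) / 2 := by
  have := sq_nonneg (a + b)
  have := sq_nonneg (a - b)
  exact abs_le.2 ⟨by linarith, by linarith⟩

lemma c6 {θ k P : ℝ} (hθ : |θ| ≤ 1 / 4) (hk : |k| ≤ 2) (P0 : 0 ≤ P) (P1 : P ≤ 1) :
    (θ ^ 3 * k * P) ^ 2 ≤ |θ| ^ 3 / 16 := by
  have t0 := abs_nonneg θ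
  have t3 : |θ| ^ 3 ≤ 1 / 64 := (pow_le_pow_left₀ t0 hθ 3).trans (by norm_num)
  have h1 : |θ ^ 3 * k * P| ≤ |θ| ^ 3 * 2 * 1 :=
    bd (bd (le_of_eq (abs_pow θ 3)) hk) (by rwa [abs_of_nonneg P0])
  have h2 := pow_le_pow_left₀ (abs_nonneg _) h1 2
  rw [sq_abs] at h2
  have := mul_le_mul_of_nonneg_left t3 (pow_nonneg t0 3)
  linarith

lemma core {r s R S θ k m g A B d : ℝ} (hr : |r| ≤ 1) (hs : |s| ≤ 1) (R0 : 0 ≤ R) (R1 : R ≤ 1)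
    (S0 : 0 ≤ S) (S1 : S ≤ 1) (hθ : |θ| ≤ 1 / 4) (hk : |k| ≤ 2) (hm : |m| ≤ 7 * θ ^ 2)
    (hg : 0 ≤ g) :
    -(θ ^ 2 * (r ^ 2 * (R * A ^ 2) + s ^ 2 * (S * B ^ 2))) - 4 * |θ| ^ 3 * (R * A ^ 2 + S * B ^ 2) ≤
      R * S * (d ^ 2 * (1 + g) - 2 * (θ ^ 3 * k * (R * S) * (r * A + s * B)) * d +
        θ * (m - 2 * θ * r * s) * (A * B)) := by
  have r2 : r ^ 2 ≤ 1 := (sq_le_one_iff_abs_le_one r).2 hr
  have s2 : s ^ 2 ≤ 1 := (sq_le_one_iff_abs_le_one s).2 hs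
  have RS0 := mul_nonneg R0 S0
  have RS1 : R * S ≤ 1 := mul_le_one₀ R1 S0 S1
  have a0 : 0 ≤ R * A ^ 2 := by positivity
  have b0 : 0 ≤ S * B ^ 2 := by positivity
  have a1 := c3 (A := A) R0 R1
  have b1 := c3 (A := B) S0 S1
  have t0 := abs_nonneg θ
  have w2 : R * S * (A ^ 2 + B ^ 2) ≤ R * A ^ 2 + S * B ^ 2 := by
    have := mul_le_mul_of_nonneg_right S1 a0
    have := mul_le_mul_of_nonneg_right R1 b0
    linarith
  have w4 : R * S * (θ ^ 3 * k * (R * S) * (r * A + s * B)) ^ 2 ≤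
      |θ| ^ 3 / 8 * (R * A ^ 2 + S * B ^ 2) := by
    rw [mul_pow]
    have h1 := mul_le_mul (c6 hθ hk RS0 RS1) (c1 (A := A) (B := B) r2 s2) (sq_nonneg _)
      (by positivity)
    have h2 := mul_le_mul_of_nonneg_left h1 RS0
    have h3 := mul_le_mul_of_nonneg_left w2 (show 0 ≤ |θ| ^ 3 / 8 by positivity)
    exact h2.trans (le_trans (le_of_eq (by ring)) h3)
  have w5 := c2 (d := d) (w := θ ^ 3 * k * (R * S) * (r * A + s * B)) RS0 hg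
  have w6 := mul_le_mul_of_nonneg_left (c4 (r := r) (s := s) a1 b1) (sq_nonneg θ)
  have w7 := (abs_le.1 (bd (bd (le_refl |θ|) (hm.trans_eq (by rw [← sq_abs]))) (c5 a1 b1))).1
  have w8 := mul_nonneg (pow_nonneg t0 3) (add_nonneg a0 b0)
  rw [mul_add (R * S)]
  generalize R * S * (d ^ 2 * (1 + g) - 2 * (θ ^ 3 * k * (R * S) * (r * A + s * B)) * d) = X
    at w5 ⊢
  generalize R * S * (θ ^ 3 * k * (R * S) * (r * A + s * B)) ^ 2 = Y at w4 w5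
  clear * - w4 w5 w6 w7 w8
  linarith

lemma t_sq {r θ t : ℝ} (hr : |r| ≤ 1) {q : ℝ} (hq : 3 / 4 ≤ q)
    (h : |t - r| = |θ| * (1 - r ^ 2) / q) : r ^ 2 - 8 / 3 * |θ| ≤ t ^ 2 := by
  have h1 : |t - r| ≤ 4 / 3 * |θ| := by
    rw [h, div_le_iff₀ (by linarith)]
    nlinarith [abs_nonneg θ, mul_nonneg (abs_nonneg θ) (sq_nonneg r),
      mul_le_mul_of_nonneg_left hq (abs_nonneg θ)]
  have h2 := (abs_le.1 (bd hr h1)).1
  nlinarith [sq_nonneg (t - r)]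

lemma fin {r θ N V1 V2 D t u : ℝ} (r2 : r ^ 2 ≤ 1) (hθ : |θ| ≤ 1 / 4) (n0 : 0 ≤ N) (d0 : 0 ≤ D)
    (p1 : 0 ≤ V1) (p2 : 0 ≤ V2) (hV : V1 + V2 = N * (1 - r ^ 2 * θ ^ 2) + D)
    (u1 : r ^ 2 - 8 / 3 * |θ| ≤ t) (u2 : r ^ 2 - 8 / 3 * |θ| ≤ u) :
    θ ^ 2 * (r ^ 2 * N) + 4 * |θ| ^ 3 * N ≤
      θ ^ 2 * (t * V1) + 100 * |θ| ^ 3 * V1 + (θ ^ 2 * (u * V2) + 100 * |θ| ^ 3 * V2) := by
  have t0 := abs_nonneg θ
  have k1 := mul_le_mul_of_nonneg_right u1 p1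
  have k2 := mul_le_mul_of_nonneg_right u2 p2
  have r0 := sq_nonneg r
  have z4 : θ ^ 2 ≤ |θ| / 4 := by
    have := mul_le_mul_of_nonneg_left hθ t0
    rw [← sq_abs]; linarith
  have z1 : r ^ 2 * θ ^ 2 ≤ θ ^ 2 := mul_le_of_le_one_left (sq_nonneg θ) r2
  have z2 : N ≤ V1 + V2 + θ ^ 2 * N := by
    have := mul_le_mul_of_nonneg_left z1 n0
    linarith
  have z3 : N ≤ 2 * (V1 + V2) := by
    have := mul_le_mul_of_nonneg_right (show θ ^ 2 ≤ 1 / 16 by linarith) n0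
    linarith
  have z5 : θ ^ 2 * N ≤ |θ| / 4 * (2 * (V1 + V2)) := mul_le_mul z4 z3 n0 (by positivity)
  have z6 : r ^ 2 * N ≤ t * V1 + u * V2 + 4 * |θ| * (V1 + V2) := by
    have := mul_le_mul_of_nonneg_left z2 r0
    have := mul_le_of_le_one_left (mul_nonneg (sq_nonneg θ) n0) r2
    have := mul_nonneg t0 (add_nonneg p1 p2)
    linarith
  have z7 := mul_le_mul_of_nonneg_left z6 (sq_nonneg θ)
  have z8 := mul_le_mul_of_nonneg_left z3 (pow_nonneg t0 3)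
  have z9 := mul_nonneg (pow_nonneg t0 3) (add_nonneg p1 p2)
  have z0 : θ ^ 2 * (4 * |θ| * (V1 + V2)) = 4 * (|θ| ^ 3 * (V1 + V2)) := by
    rw [← sq_abs θ]; ring
  linarith

/-- the single-spin sums -/
lemma single {r s θ A d α e : ℝ} (hr : |r| < 1) (hs : |s| < 1) (hθ : |θ| ≤ 1 / 4)
    (he : e = 1 - θ * r * s) (e0 : 0 < e)
    (hp : α + d * 1 = (1 + r * θ) * (A * (1 - r * θ) + d * (1 - s)) / e)
    (hm : α + d * -1 = (1 - r * θ) * (A * (1 + r * θ) - d * (1 + s)) / e) :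
    4 * (1 - θ ^ 2) / e *
      (θ ^ 2 * (r ^ 2 * ((1 - r ^ 2) * A ^ 2)) + 4 * |θ| ^ 3 * ((1 - r ^ 2) * A ^ 2)) ≤
    2 * (1 + s) * (1 + r * θ) * (θ ^ 2 * (t1 r θ 1 ^ 2 * ((1 - t1 r θ 1 ^ 2) * (α + d * 1) ^ 2)) +
      100 * |θ| ^ 3 * ((1 - t1 r θ 1 ^ 2) * (α + d * 1) ^ 2)) +
    2 * (1 - s) * (1 - r * θ) *
      (θ ^ 2 * (t1 r θ (-1) ^ 2 * ((1 - t1 r θ (-1) ^ 2) * (α + d * -1) ^ 2)) +
      100 * |θ| ^ 3 * ((1 - t1 r θ (-1) ^ 2) * (α + d * -1) ^ 2)) := by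
  have h1 := abs_le.1 (bd hr.le hθ)
  have h3 := abs_lt.1 hs
  have t0 := abs_nonneg θ
  have r2 : r ^ 2 < 1 := (sq_lt_one_iff_abs_lt_one r).2 hr
  have s2 : s ^ 2 < 1 := (sq_lt_one_iff_abs_lt_one s).2 hs
  have t2 : θ ^ 2 ≤ 1 / 16 := by
    rw [← sq_abs]; exact (pow_le_pow_left₀ t0 hθ 2).trans (by norm_num)
  have q1 : 0 < 1 + r * θ := by linarith
  have q2 : 0 < 1 - r * θ := by linarith
  have u1 := t_sq (t := t1 r θ 1) (θ := θ) hr.le (q := 1 + r * θ) (by linarith) (by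
    have : t1 r θ 1 - r = θ * (1 - r ^ 2) / (1 + r * θ) := by rw [t1p]; field_simp; ring
    rw [this, abs_div, abs_mul, abs_of_pos q1, abs_of_pos (by linarith : 0 < 1 - r ^ 2)])
  have u2 := t_sq (t := t1 r θ (-1)) (θ := θ) hr.le (q := 1 - r * θ) (by linarith) (by
    have : t1 r θ (-1) - r = -(θ * (1 - r ^ 2) / (1 - r * θ)) := by rw [t1m]; field_simp; ring
    rw [this, abs_neg, abs_div, abs_mul, abs_of_pos q2, abs_of_pos (by linarith : 0 < 1 - r ^ 2)])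
  have v1 : (1 - t1 r θ 1 ^ 2) * (α + d * 1) ^ 2 = (1 - r ^ 2) * (1 - θ ^ 2) *
      (A * (1 - r * θ) + d * (1 - s)) ^ 2 / e ^ 2 := by
    rw [hp, t1p]; field_simp; ring
  have v2 : (1 - t1 r θ (-1) ^ 2) * (α + d * -1) ^ 2 = (1 - r ^ 2) * (1 - θ ^ 2) *
      (A * (1 + r * θ) - d * (1 + s)) ^ 2 / e ^ 2 := by
    rw [hm, t1m]; field_simp; ring
  have R0 : 0 < 1 - r ^ 2 := by linarith
  have S0 : 0 < 1 - s ^ 2 := by linarith
  have T0 : 0 < 1 - θ ^ 2 := by linarith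
  have p1 : 0 ≤ 2 * (1 + s) * (1 + r * θ) * ((1 - t1 r θ 1 ^ 2) * (α + d * 1) ^ 2) := by
    have : 0 < 1 + s := by linarith
    rw [v1]; positivity
  have p2 : 0 ≤ 2 * (1 - s) * (1 - r * θ) * ((1 - t1 r θ (-1) ^ 2) * (α + d * -1) ^ 2) := by
    have : 0 < 1 - s := by linarith
    rw [v2]; positivity
  have hV : 2 * (1 + s) * (1 + r * θ) * ((1 - t1 r θ 1 ^ 2) * (α + d * 1) ^ 2) +
      2 * (1 - s) * (1 - r * θ) * ((1 - t1 r θ (-1) ^ 2) * (α + d * -1) ^ 2) =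
      4 * (1 - θ ^ 2) / e * ((1 - r ^ 2) * A ^ 2) * (1 - r ^ 2 * θ ^ 2) +
        4 * (1 - θ ^ 2) / e * ((1 - r ^ 2) * (1 - s ^ 2) * d ^ 2) := by
    rw [v1, v2]; field_simp; rw [he]; ring
  have := fin r2.le hθ (by positivity) (by positivity) p1 p2 hV u1 u2
  exact le_trans (le_of_eq (by ring)) (this.trans (le_of_eq (by ring)))

lemma D_ge {a b e : ℝ} (ha : |a| ≤ 1 / 4) (hb : |b| ≤ 1 / 4) (he : 3 / 4 ≤ e) :
    4 / 7 ≤ e * ((1 + a) * (1 - a)) * ((1 + b) * (1 - b)) := by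
  have k : ∀ a : ℝ, |a| ≤ 1 / 4 → 15 / 16 ≤ (1 + a) * (1 - a) := fun a ha => by
    have := pow_le_pow_left₀ (abs_nonneg _) ha 2
    rw [sq_abs] at this
    linarith
  have a4 := mul_le_mul (mul_le_mul he (k a ha) (by norm_num) (by linarith)) (k b hb) (by norm_num)
    (mul_nonneg (by linarith) (by linarith [k a ha]))
  linarith

end PairA

open PairA in
theorem pair {r s θ : ℝ} (hr : |r| < 1) (hs : |s| < 1) (hθ : |θ| ≤ 1 / 4) (α γ d : ℝ) :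
    0 ≤ pG r s θ α γ d 1 1 + pG r s θ α γ d 1 (-1) + pG r s θ α γ d (-1) 1 +
      pG r s θ α γ d (-1) (-1) := by
  have h1 := abs_le.1 (bd hr.le hθ)
  have h1' := abs_le.1 (bd hs.le hθ)
  have h2 := abs_le.1 (bd (bd hθ hr.le) hs.le)
  have r2 : r ^ 2 < 1 := (sq_lt_one_iff_abs_lt_one r).2 hr
  have s2 : s ^ 2 < 1 := (sq_lt_one_iff_abs_lt_one s).2 hs
  have t2 : θ ^ 2 ≤ 1 / 16 := by
    rw [← sq_abs]; exact (pow_le_pow_left₀ (abs_nonneg _) hθ 2).trans (by norm_num)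
  have q1 : 0 < 1 + r * θ := by linarith
  have q2 : 0 < 1 - r * θ := by linarith
  have q3 : 0 < 1 + s * θ := by linarith
  have q4 : 0 < 1 - s * θ := by linarith
  obtain ⟨e, he⟩ : ∃ e, e = 1 - θ * r * s := ⟨_, rfl⟩
  have e0 : 0 < e := by linarith
  obtain ⟨A, hA⟩ : ∃ A, A = (α * e + d * (s - r * θ)) / ((1 + r * θ) * (1 - r * θ)) :=
    ⟨_, rfl⟩
  obtain ⟨B, hB⟩ : ∃ B, B = (γ * e + d * (r - s * θ)) / ((1 + s * θ) * (1 - s * θ)) :=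
    ⟨_, rfl⟩
  have ap : α + d * 1 = (1 + r * θ) * (A * (1 - r * θ) + d * (1 - s)) / e := by
    rw [hA]; field_simp; rw [he]; ring
  have am : α + d * -1 = (1 - r * θ) * (A * (1 + r * θ) - d * (1 + s)) / e := by
    rw [hA]; field_simp; rw [he]; ring
  have bp : γ + d * 1 = (1 + s * θ) * (B * (1 - s * θ) + d * (1 - r)) / e := by
    rw [hB]; field_simp; rw [he]; ring
  have bm : γ + d * -1 = (1 - s * θ) * (B * (1 + s * θ) - d * (1 + r)) / e := by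
    rw [hB]; field_simp; rw [he]; ring
  have s1 := single hr hs hθ he e0 ap am
  have s2' := single hs hr hθ (he.trans (by ring)) e0 bp bm
  have D0 : 0 < e * ((1 + r * θ) * (1 - r * θ)) * ((1 + s * θ) * (1 - s * θ)) := by
    positivity
  have D1 := D_ge (e := e) ((bd hr.le hθ).trans_eq (one_mul _)) ((bd hs.le hθ).trans_eq (one_mul _))
    (by linarith)
  have T0 : 0 < 1 - θ ^ 2 := by linarith
  have R0 : 0 < 1 - r ^ 2 := by linarith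
  have S0 : 0 < 1 - s ^ 2 := by linarith
  obtain ⟨D, hD⟩ : ∃ D, D =
    e * ((1 + r * θ) * (1 - r * θ)) * ((1 + s * θ) * (1 - s * θ)) := ⟨_, rfl⟩
  have hN := N_bd hr.le hs.le hθ
  obtain ⟨E, hE⟩ : ∃ E, E =
    (1 + (r * θ) ^ 2 - 2 * s * (r * θ)) * (1 + (s * θ) ^ 2 - 2 * r * (s * θ)) +
        θ * ((s * (1 + (r * θ) ^ 2) - 2 * (r * θ)) * (r * (1 + (s * θ) ^ 2) - 2 * (s * θ))) :=
    ⟨_, rfl⟩
  have yp := y_poly r s θ A B d
  have cp := cross_poly r s θ A B d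
  rw [← hE] at yp hN
  rw [← he] at hN cp
  rw [← hD] at D0 D1 hN
  have c1 := core (A := A) (B := B) (d := d) (k := (1 - θ ^ 2) / D)
    (m := ((1 - θ ^ 2) * E - (1 - 2 * θ * r * s) * D) / D)
    (g := θ ^ 2 * (1 - r ^ 2) * (1 - s ^ 2) * (1 + θ * r * s) * ((1 - θ ^ 2) / D))
    hr.le hs.le R0.le (by linarith [sq_nonneg r]) S0.le (by linarith [sq_nonneg s]) hθ
    (by
      rw [abs_of_pos (div_pos T0 D0), div_le_iff₀ D0]
      linarith [sq_nonneg θ])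
    (by
      rw [abs_div, abs_of_pos D0, div_le_iff₀ D0]
      linarith [mul_le_mul_of_nonneg_left D1 (sq_nonneg θ)])
    (by
      have : 0 < 1 + θ * r * s := by linarith
      positivity)
  have c2 := mul_le_mul_of_nonneg_left c1
    (show 0 ≤ 4 * (1 - θ ^ 2) / e by positivity)
  have x1 : (1 - t1 r θ 1) * (α + d * 1) =
      (1 - r) * (1 - θ) * (A * (1 - r * θ) + d * (1 - s)) / e := by
    rw [ap, t1p]; field_simp; ring
  have x2 : (-1 - t1 r θ 1) * (α + d * 1) =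
      -((1 + r) * (1 + θ)) * (A * (1 - r * θ) + d * (1 - s)) / e := by
    rw [ap, t1p]; field_simp; ring
  have x3 : (1 - t1 r θ (-1)) * (α + d * -1) =
      (1 - r) * (1 + θ) * (A * (1 + r * θ) - d * (1 + s)) / e := by
    rw [am, t1m]; field_simp; ring
  have x4 : (-1 - t1 r θ (-1)) * (α + d * -1) =
      -((1 + r) * (1 - θ)) * (A * (1 + r * θ) - d * (1 + s)) / e := by
    rw [am, t1m]; field_simp; ring
  have y1 : (1 - t1 s θ 1) * (γ + d * 1) =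
      (1 - s) * (1 - θ) * (B * (1 - s * θ) + d * (1 - r)) / e := by
    rw [bp, t1p]; field_simp; ring
  have y2 : (-1 - t1 s θ 1) * (γ + d * 1) =
      -((1 + s) * (1 + θ)) * (B * (1 - s * θ) + d * (1 - r)) / e := by
    rw [bp, t1p]; field_simp; ring
  have y3 : (1 - t1 s θ (-1)) * (γ + d * -1) =
      (1 - s) * (1 + θ) * (B * (1 + s * θ) - d * (1 + r)) / e := by
    rw [bm, t1m]; field_simp; ring
  have y4 : (-1 - t1 s θ (-1)) * (γ + d * -1) =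
      -((1 + s) * (1 - θ)) * (B * (1 + s * θ) - d * (1 + r)) / e := by
    rw [bm, t1m]; field_simp; ring
  have u1 : (1 - t1 r θ 1 ^ 2) * (α + d * 1) =
      (1 - r ^ 2) * (1 - θ ^ 2) / (e * ((1 + r * θ) * (1 - r * θ))) *
        ((1 - r * θ) * (A * (1 - r * θ) + d * (1 - s))) := by
    rw [ap, t1p]; field_simp; ring
  have u2 : (1 - t1 r θ (-1) ^ 2) * (α + d * -1) =
      (1 - r ^ 2) * (1 - θ ^ 2) / (e * ((1 + r * θ) * (1 - r * θ))) *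
        ((1 + r * θ) * (A * (1 + r * θ) - d * (1 + s))) := by
    rw [am, t1m]; field_simp; ring
  have u3 : (1 - t1 s θ 1 ^ 2) * (γ + d * 1) =
      (1 - s ^ 2) * (1 - θ ^ 2) / (e * ((1 + s * θ) * (1 - s * θ))) *
        ((1 - s * θ) * (B * (1 - s * θ) + d * (1 - r))) := by
    rw [bp, t1p]; field_simp; ring
  have u4 : (1 - t1 s θ (-1) ^ 2) * (γ + d * -1) =
      (1 - s ^ 2) * (1 - θ ^ 2) / (e * ((1 + s * θ) * (1 - s * θ))) *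
        ((1 + s * θ) * (B * (1 + s * θ) - d * (1 + r))) := by
    rw [bm, t1m]; field_simp; ring
  have key : 4 * (1 - θ ^ 2) / e * ((1 - r ^ 2) * (1 - s ^ 2) *
      (d ^ 2 * (1 + θ ^ 2 * (1 - r ^ 2) * (1 - s ^ 2) * (1 + θ * r * s) * ((1 - θ ^ 2) / D)) -
        2 * (θ ^ 3 * ((1 - θ ^ 2) / D) * ((1 - r ^ 2) * (1 - s ^ 2)) * (r * A + s * B)) * d +
        θ * (((1 - θ ^ 2) * E - (1 - 2 * θ * r * s) * D) / D - 2 * θ * r * s) * (A * B))) =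
      4 * (1 - r ^ 2) * (1 - s ^ 2) * (1 - θ ^ 2) * e * (d ^ 2 - θ * A * B) /
        e ^ 2 +
      θ * ((1 - r ^ 2) * (1 - θ ^ 2) / (e * ((1 + r * θ) * (1 - r * θ)))) *
        ((1 - s ^ 2) * (1 - θ ^ 2) / (e * ((1 + s * θ) * (1 - s * θ)))) *
        (4 * (θ * (1 - r ^ 2) * (1 - s ^ 2) * (1 + θ * r * s) * d ^ 2 -
          2 * θ ^ 2 * (1 - r ^ 2) * (1 - s ^ 2) * (r * A + s * B) * d + E * (A * B))) := by
    have e1 : (1 - r ^ 2) * (1 - θ ^ 2) / (e * ((1 + r * θ) * (1 - r * θ))) *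
        ((1 - s ^ 2) * (1 - θ ^ 2) / (e * ((1 + s * θ) * (1 - s * θ)))) =
        (1 - r ^ 2) * (1 - s ^ 2) * (1 - θ ^ 2) ^ 2 / (e * D) := by
      rw [hD]; field_simp
    rw [mul_assoc θ ((1 - r ^ 2) * (1 - θ ^ 2) / _), e1]
    generalize 1 - r ^ 2 = R
    generalize 1 - s ^ 2 = S
    generalize 1 - θ ^ 2 = T
    field_simp
    ring
  rw [key, ← yp, ← cp] at c2
  simp only [pG]
  rw [x1, x2, x3, x4, y1, y2, y3, y4, u1, u2, u3, u4]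
  generalize (1 - r ^ 2) * (1 - θ ^ 2) / (e * ((1 + r * θ) * (1 - r * θ))) = k1
    at c2 ⊢
  generalize (1 - s ^ 2) * (1 - θ ^ 2) / (e * ((1 + s * θ) * (1 - s * θ))) = k2
    at c2 ⊢
  generalize A * (1 - r * θ) + d * (1 - s) = a1 at c2 ⊢
  generalize A * (1 + r * θ) - d * (1 + s) = a2 at c2 ⊢
  generalize B * (1 - s * θ) + d * (1 - r) = b1 at c2 ⊢
  generalize B * (1 + s * θ) - d * (1 + r) = b2 at c2 ⊢
  generalize (1 - t1 r θ 1 ^ 2) * (α + d * 1) ^ 2 = v1 at s1 ⊢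
  generalize (1 - t1 r θ (-1) ^ 2) * (α + d * -1) ^ 2 = v2 at s1 ⊢
  generalize (1 - t1 s θ 1 ^ 2) * (γ + d * 1) ^ 2 = v3 at s2' ⊢
  generalize (1 - t1 s θ (-1) ^ 2) * (γ + d * -1) ^ 2 = v4 at s2' ⊢
  simp only [div_eq_mul_inv, ← inv_pow] at c2 s1 s2' ⊢
  generalize e⁻¹ = ei at c2 s1 s2' ⊢
  clear * - c2 s1 s2'
  linarith

end Vale.Agent.P150
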