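import Vale.Agent.P150.Base
import Vale.Agent.P150.Pair

/-! The integrated Bochner inequality (job Boch). -/

namespace Vale.Agent.P150

open Finset Function

variable {ι : Type} [Fintype ι] [DecidableEq ι] {J : ι → ι → ℝ}

noncomputable def tt (J : ι → ι → ℝ) (h : ι → ℝ) (i : ι) (x : ι → Bool) : ℝ :=
  Real.tanh (HH J h i x)

noncomputable def uu (J : ι → ι → ℝ) (h : ι → ℝ) (f : (ι → Bool) → ℝ) (i : ι) (x : ι → Bool) : ℝ :=
  (1 - tt J h i x ^ 2) * DD i f x

noncomputable def vv (J : ι → ι → ℝ) (h : ι → ℝ) (f : (ι → Bool) → ℝ) (i : ι) (x : ι → Bool) : ℝ :=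
  (1 - tt J h i x ^ 2) * DD i f x ^ 2

namespace BochX

lemma exp_sp (a : ℝ) (b : Bool) :
    Real.exp (sp b * a) = Real.cosh a * (1 + Real.tanh a * sp b) := by
  have := (Real.cosh_pos a).ne'
  rw [Real.tanh_eq_sinh_div_cosh]
  cases b
  · rw [sp_false, neg_one_mul, ← Real.cosh_sub_sinh]; field_simp; ring
  · rw [sp_true, one_mul, ← Real.cosh_add_sinh]; field_simp

lemma exp_sp2 (a : ℝ) (b c : Bool) :
    Real.exp (sp b * sp c * a) = Real.cosh a * (1 + Real.tanh a * sp b * sp c) := by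
  have e : sp b * sp c = sp (b == c) := by cases b <;> cases c <;> simp
  rw [mul_assoc (Real.tanh a), e, exp_sp]

lemma tanh_add (a c : ℝ) :
    Real.tanh (a + c) = (Real.tanh a + Real.tanh c) / (1 + Real.tanh a * Real.tanh c) := by
  have h1 := (Real.cosh_pos a).ne'
  have h2 := (Real.cosh_pos c).ne'
  have h3 := (Real.cosh_pos (a + c)).ne'
  rw [Real.cosh_add] at h3
  simp only [Real.tanh_eq_sinh_div_cosh, Real.sinh_add, Real.cosh_add]
  field_simp

lemma tanh_sp (a c : ℝ) (b : Bool) :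
    Real.tanh (a + c * sp b) = t1 (Real.tanh a) (Real.tanh c) (sp b) := by
  rw [tanh_add, t1]
  cases b <;> simp

lemma tanh_nn {x : ℝ} (hx : 0 ≤ x) :
    0 ≤ Real.tanh x ∧ Real.tanh x ≤ x ∧ x - Real.tanh x ≤ x ^ 3 := by
  have hc := Real.cosh_pos x
  have hm : Monotone fun y => y * Real.cosh y - Real.sinh y := by
    refine monotone_of_hasDerivAt_nonneg (f' := fun y => y * Real.sinh y) (fun y => ?_) fun y => ?_
    · refine (((hasDerivAt_id' y).fun_mul (Real.hasDerivAt_cosh y)).fun_sub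
        (Real.hasDerivAt_sinh y)).congr_deriv ?_
      ring
    · rcases le_total 0 y with h | h
      · exact mul_nonneg h (Real.sinh_nonneg_iff.2 h)
      · exact mul_nonneg_of_nonpos_of_nonpos h (Real.sinh_nonpos_iff.2 h)
  have h1 := hm hx
  simp only [zero_mul, Real.sinh_zero, sub_zero] at h1
  have h2 : Real.cosh x * (1 - x ^ 2) ≤ 1 := by
    have a1 := (Real.cosh_le_exp_half_sq x).trans
      (Real.exp_le_exp.2 (half_le_self (sq_nonneg x)))
    have a2 := Real.one_sub_le_exp_neg (x ^ 2)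
    calc _ ≤ Real.cosh x * Real.exp (-x ^ 2) := by gcongr
      _ ≤ Real.exp (x ^ 2) * Real.exp (-x ^ 2) := by gcongr
      _ = 1 := by rw [← Real.exp_add]; simp
  have h3 := Real.self_le_sinh_iff.2 hx
  rw [Real.tanh_eq_sinh_div_cosh]
  refine ⟨div_nonneg (hx.trans h3) hc.le, (div_le_iff₀ hc).2 (by linarith), ?_⟩
  rw [sub_le_comm, le_div_iff₀ hc]
  nlinarith [mul_le_mul_of_nonneg_left h2 hx]

lemma tanh_bd (x : ℝ) : |Real.tanh x| ≤ |x| ∧ |x - Real.tanh x| ≤ |x| ^ 3 := by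
  rcases le_total 0 x with h | h
  · obtain ⟨h1, h2, h3⟩ := tanh_nn h
    rw [abs_of_nonneg h1, abs_of_nonneg h, abs_of_nonneg (sub_nonneg.2 h2)]
    exact ⟨h2, h3⟩
  · obtain ⟨h1, h2, h3⟩ := tanh_nn (neg_nonneg.2 h)
    rw [Real.tanh_neg] at h1 h2 h3
    rw [abs_of_nonpos (by linarith), abs_of_nonpos h, abs_of_nonpos (by linarith)]
    exact ⟨h2, by linarith⟩

lemma cmp (c : ℝ) {p q : ℝ} (hp : p ^ 2 < 1) (hq : q ^ 2 < 1) (A B : ℝ) :
    Real.tanh c * ((1 - p ^ 2) * A * ((1 - q ^ 2) * B)) +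
      Real.tanh c ^ 2 * (p ^ 2 * ((1 - p ^ 2) * A ^ 2) + q ^ 2 * ((1 - q ^ 2) * B ^ 2)) +
      100 * |Real.tanh c| ^ 3 * ((1 - p ^ 2) * A ^ 2 + (1 - q ^ 2) * B ^ 2) ≤
    c * ((1 - p ^ 2) * A) * ((1 - q ^ 2) * B) +
      c ^ 2 * (p ^ 2 * ((1 - p ^ 2) * A ^ 2) + q ^ 2 * ((1 - q ^ 2) * B ^ 2)) +
      101 * |c| ^ 3 * ((1 - p ^ 2) * A ^ 2 + (1 - q ^ 2) * B ^ 2) := by
  obtain ⟨h1, h2⟩ := tanh_bd c
  have v1 : 0 ≤ (1 - p ^ 2) * A ^ 2 := mul_nonneg (by linarith) (sq_nonneg _)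
  have v2 : 0 ≤ (1 - q ^ 2) * B ^ 2 := mul_nonneg (by linarith) (sq_nonneg _)
  have u1 : ((1 - p ^ 2) * A) ^ 2 ≤ (1 - p ^ 2) * A ^ 2 := by
    nlinarith [mul_nonneg (sq_nonneg p) v1]
  have u2 : ((1 - q ^ 2) * B) ^ 2 ≤ (1 - q ^ 2) * B ^ 2 := by
    nlinarith [mul_nonneg (sq_nonneg q) v2]
  have w : 0 ≤ p ^ 2 * ((1 - p ^ 2) * A ^ 2) + q ^ 2 * ((1 - q ^ 2) * B ^ 2) := by positivity
  generalize p ^ 2 * ((1 - p ^ 2) * A ^ 2) + q ^ 2 * ((1 - q ^ 2) * B ^ 2) = S at w ⊢
  generalize (1 - p ^ 2) * A ^ 2 = V1 at v1 u1 ⊢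
  generalize (1 - q ^ 2) * B ^ 2 = V2 at v2 u2 ⊢
  generalize (1 - p ^ 2) * A = U1 at u1 ⊢
  generalize (1 - q ^ 2) * B = U2 at u2 ⊢
  have a1 : Real.tanh c ^ 2 * S ≤ c ^ 2 * S := mul_le_mul_of_nonneg_right (sq_le_sq.2 h1) w
  have a2 : |Real.tanh c| ^ 3 * (V1 + V2) ≤ |c| ^ 3 * (V1 + V2) := by gcongr
  have a3 : |U1 * U2| ≤ V1 + V2 :=
    abs_le.2 ⟨by nlinarith [sq_nonneg (U1 + U2)], by nlinarith [sq_nonneg (U1 - U2)]⟩
  have a4 : |(c - Real.tanh c) * (U1 * U2)| ≤ |c| ^ 3 * (V1 + V2) := by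
    rw [abs_mul]; gcongr
  have a5 := (abs_le.1 a4).1
  linarith

omit [Fintype ι] in
lemma DD_two (f : (ι → Bool) → ℝ) {i j : ι} (hij : i ≠ j) (x : ι → Bool) :
    ∃ α γ d : ℝ, ∀ s t, DD i f (update (update x i s) j t) = α + d * sp t ∧
      DD j f (update (update x i s) j t) = γ + d * sp s := by
  let F : Bool → Bool → ℝ := fun s t => f (update (update x i s) j t)
  refine ⟨(F true true - F false true + F true false - F false false) / 4,
    (F true true - F true false + F false true - F false false) / 4,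
    (F true true - F false true - F true false + F false false) / 4, fun s t => ?_⟩
  have e1 : DD i f (update (update x i s) j t) = (F true t - F false t) / 2 := by
    simp only [DD, F, update_comm hij.symm, update_idem]
  have e2 : DD j f (update (update x i s) j t) = (F s true - F s false) / 2 := by
    simp only [DD, F, update_idem]
  rw [e1, e2]
  constructor
  · cases t <;> simp only [sp_true, sp_false] <;> ring
  · cases s <;> simp only [sp_true, sp_false] <;> ring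

lemma vv_nn (h : ι → ℝ) (f : (ι → Bool) → ℝ) (i : ι) (x : ι → Bool) : 0 ≤ vv J h f i x :=
  mul_nonneg (sub_nonneg.2 (Real.tanh_sq_lt_one _).le) (sq_nonneg _)

end BochX

open BochX

lemma dir_eq (hJ : Sym J) (h : ι → ℝ) (f : (ι → Bool) → ℝ) (i : ι) :
    ∑ x, W J h x * (f x - Qw (W J h) i f x) ^ 2 = ∑ x, W J h x * vv J h f i x := by
  rw [sum_upd i, sum_upd i fun x => W J h x * vv J h f i x]
  congr 1
  refine sum_congr rfl fun x _ => ?_
  simp only [sub_Qw hJ, vv, tt, W_upd hJ, HH_upd, hJ.diag, zero_mul, add_zero, DD_upd, update_self,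
    sub_mul, Real.exp_sub, exp_sp _ true, exp_sp _ false]
  simp only [sp_true, sp_false]
  ring

theorem pair_sum (hJ : Sym J) (h : ι → ℝ) (f : (ι → Bool) → ℝ) {i j : ι} (hij : i ≠ j)
    (h4 : |J i j| ≤ 1 / 4) :
    0 ≤ ∑ x, W J h x * ((f x - Qw (W J h) i f x) * (f x - Qw (W J h) j f x) +
      J i j * uu J h f i x * uu J h f j x +
      J i j ^ 2 * (tt J h i x ^ 2 * vv J h f i x + tt J h j x ^ 2 * vv J h f j x) +
      101 * |J i j| ^ 3 * (vv J h f i x + vv J h f j x)) := by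
  rw [sum_upd j, sum_upd i]
  refine div_nonneg (div_nonneg (sum_nonneg fun x _ => ?_) two_pos.le) two_pos.le
  obtain ⟨α, γ, d, hD⟩ := DD_two f hij x
  obtain ⟨a, ha⟩ : ∃ a, HH J h i x = a + J i j * sp (x j) := ⟨_, (sub_add_cancel _ _).symm⟩
  obtain ⟨b, hb⟩ : ∃ b, HH J h j x = b + J i j * sp (x i) := ⟨_, (sub_add_cancel _ _).symm⟩
  have hi : ∀ s t, HH J h i (update (update x i s) j t) = a + J i j * sp t := fun s t => by
    rw [HH_upd, HH_upd, hJ.diag, update_of_ne hij.symm, ha]; ring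
  have hj0 : ∀ s, HH J h j (update x i s) = b + J i j * sp s := fun s => by
    rw [HH_upd, hb, hJ.symm j i]; ring
  have hj : ∀ s t, HH J h j (update (update x i s) j t) = b + J i j * sp s := fun s t => by
    rw [HH_upd, hJ.diag, hj0]; ring
  obtain ⟨K, hK, hW⟩ : ∃ K : ℝ, 0 ≤ K ∧ ∀ s t, W J h (update (update x i s) j t) =
      K * ((1 + Real.tanh a * sp s) * (1 + Real.tanh b * sp t) *
        (1 + Real.tanh (J i j) * sp s * sp t)) := by
    refine ⟨W J h x * Real.exp (-(sp (x i) * a + sp (x j) * b + J i j * sp (x i) * sp (x j))) *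
      (Real.cosh a * Real.cosh b * Real.cosh (J i j)), ?_, fun s t => ?_⟩
    · have := W_pos J h x
      positivity
    · rw [W_upd hJ, W_upd hJ, hj0, update_of_ne hij.symm, ha, mul_assoc, ← Real.exp_add,
        show (sp s - sp (x i)) * (a + J i j * sp (x j)) + (sp t - sp (x j)) * (b + J i j * sp s) =
          -(sp (x i) * a + sp (x j) * b + J i j * sp (x i) * sp (x j)) + sp s * a + sp t * b +
            sp s * sp t * J i j by ring, Real.exp_add, Real.exp_add, Real.exp_add, exp_sp, exp_sp,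
        exp_sp2]
      ring
  have key : ∀ s t, K * pG (Real.tanh a) (Real.tanh b) (Real.tanh (J i j)) α γ d (sp s) (sp t) ≤
      (fun x => W J h x * ((f x - Qw (W J h) i f x) * (f x - Qw (W J h) j f x) +
      J i j * uu J h f i x * uu J h f j x +
      J i j ^ 2 * (tt J h i x ^ 2 * vv J h f i x + tt J h j x ^ 2 * vv J h f j x) +
      101 * |J i j| ^ 3 * (vv J h f i x + vv J h f j x))) (update (update x i s) j t) := by
    intro s t
    have h0 := (W_pos J h (update (update x i s) j t)).le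
    simp only [sub_Qw hJ, uu, vv, tt, hi, hj, (hD s t).1, (hD s t).2, update_self,
      update_of_ne hij]
    rw [pG, ← mul_assoc, ← hW, ← tanh_sp, ← tanh_sp]
    refine mul_le_mul_of_nonneg_left ?_ h0
    have := cmp (J i j) (Real.tanh_sq_lt_one (a + J i j * sp t))
      (Real.tanh_sq_lt_one (b + J i j * sp s)) (α + d * sp t) (γ + d * sp s)
    linarith
  have hp := mul_nonneg hK (pair (Real.abs_tanh_lt_one a) (Real.abs_tanh_lt_one b)
    ((tanh_bd _).1.trans h4) α γ d)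
  have k1 := key true true
  have k2 := key true false
  have k3 := key false true
  have k4 := key false false
  simp only [sp_true, sp_false] at k1 k2 k3 k4
  linarith

theorem bochner {lam δ : ℝ} (hJ : Good lam δ J) (h1 : lam ≤ 1) (hδ : δ ≤ 1 / 4) (h : ι → ℝ)
    (f : (ι → Bool) → ℝ) :
    (1 - lam - 101 * δ) * Dir (W J h) f ≤ ∑ x, W J h x * (∑ i, (f x - Qw (W J h) i f x)) ^ 2 := by
  rcases isEmpty_or_nonempty ι with hι | ⟨⟨i₀⟩⟩
  · simp [Dir]
  have hδ0 : 0 ≤ δ := (abs_nonneg _).trans (hJ.ent i₀ i₀)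
  let A : ι → (ι → Bool) → ℝ := fun i x => f x - Qw (W J h) i f x
  let R : ι → ι → (ι → Bool) → ℝ := fun i j x => J i j * uu J h f i x * uu J h f j x +
      J i j ^ 2 * (tt J h i x ^ 2 * vv J h f i x + tt J h j x ^ 2 * vv J h f j x) +
      101 * |J i j| ^ 3 * (vv J h f i x + vv J h f j x)
  have h2 : ∀ i j, (if i = j then ∑ x, W J h x * vv J h f i x else 0) ≤
      ∑ x, W J h x * (A i x * A j x + R i j x) := fun i j => by
    split_ifs with hij
    · subst hij
      rw [← dir_eq hJ.sym]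
      exact le_of_eq (sum_congr rfl fun x _ => by simp [A, R, hJ.sym.diag, sq])
    · refine (pair_sum hJ.sym h f hij ((hJ.ent i j).trans hδ)).trans_eq ?_
      exact sum_congr rfl fun x _ => by simp only [A, R, add_assoc]
  have h3 : ∀ x, ∑ i, ∑ j, R i j x ≤ (lam + 101 * δ) * ∑ i, vv J h f i x := fun x => by
    let c : ι → ℝ := fun i => (tt J h i x ^ 2 + 101 * δ) * vv J h f i x
    have hc : ∀ i, 0 ≤ c i := fun i => mul_nonneg (by positivity) (vv_nn h f i x)
    have a1 : ∀ i j, R i j x ≤ J i j * uu J h f i x * uu J h f j x +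
        (J i j ^ 2 * c i + J j i ^ 2 * c j) := fun i j => by
      have b1 : |J i j| ^ 3 ≤ δ * J i j ^ 2 := by
        rw [pow_succ', sq_abs]
        exact mul_le_mul_of_nonneg_right (hJ.ent i j) (sq_nonneg _)
      have b2 := mul_le_mul_of_nonneg_right b1 (add_nonneg (vv_nn (J := J) h f i x)
        (vv_nn (J := J) h f j x))
      simp only [R, c, hJ.sym.symm j i]
      linarith
    have a2 : ∑ i, ∑ j, J i j ^ 2 * c i ≤ ∑ i, lam / 2 * c i := sum_le_sum fun i _ => by
      rw [← sum_mul]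
      exact mul_le_mul_of_nonneg_right (hJ.row i) (hc i)
    have a3 : ∑ i, ∑ j, J j i ^ 2 * c j ≤ ∑ i, lam / 2 * c i := sum_comm.trans_le a2
    have a4 := hJ.up fun i => uu J h f i x
    have a5 : lam * ∑ i, uu J h f i x ^ 2 + 2 * ∑ i, lam / 2 * c i ≤
        (lam + 101 * δ) * ∑ i, vv J h f i x := by
      simp only [mul_sum, ← sum_add_distrib]
      refine sum_le_sum fun i _ => ?_
      have b1 : uu J h f i x ^ 2 = (1 - tt J h i x ^ 2) * vv J h f i x := by rw [uu, vv]; ring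
      have b2 := mul_le_mul_of_nonneg_right h1 (mul_nonneg hδ0 (vv_nn (J := J) h f i x))
      simp only [b1, c]
      linarith
    have a6 := sum_le_sum fun i (_ : i ∈ univ) => sum_le_sum fun j (_ : j ∈ univ) => a1 i j
    simp only [sum_add_distrib] at a6
    linarith
  have h4 := sum_le_sum fun i (_ : i ∈ univ) => sum_le_sum fun j (_ : j ∈ univ) => h2 i j
  have h5 : ∑ i, ∑ j, ∑ x, W J h x * (A i x * A j x + R i j x) =
      ∑ x, W J h x * (∑ i, A i x) ^ 2 + ∑ x, W J h x * ∑ i, ∑ j, R i j x := by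
    rw [← sum_add_distrib, sum_congr rfl fun i _ => sum_comm, sum_comm]
    refine sum_congr rfl fun x _ => ?_
    rw [sq, sum_mul_sum]
    simp only [mul_sum, ← sum_add_distrib, mul_add]
  have h6 := sum_le_sum fun x (_ : x ∈ univ) => mul_le_mul_of_nonneg_left (h3 x) (W_pos J h x).le
  have h7 : ∑ x, W J h x * ((lam + 101 * δ) * ∑ i, vv J h f i x) =
      (lam + 101 * δ) * ∑ i, ∑ x, W J h x * vv J h f i x := by
    rw [sum_comm, mul_sum]
    exact sum_congr rfl fun x _ => by rw [← mul_sum]; ring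
  simp only [sum_ite_eq, mem_univ, if_true] at h4
  simp only [Dir, dir_eq hJ.sym]
  simp only [A] at h5
  linarith

end Vale.Agent.P150
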