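import Vale.Agent.P150.Defs

/-! Gaussian vectors (job Gau). -/

namespace Vale.Agent.P150

open Finset MeasureTheory ProbabilityTheory

variable {α κ : Type} [Fintype α] [Fintype κ]

instance prob_gI : IsProbabilityMeasure (gI α) := by
  unfold gI; infer_instance

lemma int_exp_lin (c : α → ℝ) : Integrable (fun y : α → ℝ => Real.exp (∑ k, c k * y k)) (gI α) := by
  simp only [Real.exp_sum]
  exact Integrable.fintype_prod (f := fun k x => Real.exp (c k * x))
    fun k => integrable_exp_mul_gaussianReal _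

lemma mgf_lin (c : α → ℝ) :
    ∫ y, Real.exp (∑ k, c k * y k) ∂(gI α) = Real.exp ((∑ k, c k ^ 2) / 2) := by
  have h : ∀ t, ∫ x, Real.exp (t * x) ∂(gaussianReal 0 1) = Real.exp (t ^ 2 / 2) := fun t => by
    simpa [mgf] using congrFun (mgf_fun_id_gaussianReal (μ := 0) (v := 1)) t
  simp only [Real.exp_sum, sum_div, ← h]
  exact integral_fintype_prod_eq_prod fun k x => Real.exp (c k * x)

namespace GauX

lemma chr (c : α → ℝ) : ∫ y, Complex.exp ((∑ k, c k * y k : ℝ) * Complex.I) ∂(gI α) =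
    Complex.exp (-(∑ k, c k ^ 2 : ℝ) / 2) := by
  have h : ∀ t : ℝ, ∫ x : ℝ, Complex.exp (t * x * Complex.I) ∂(gaussianReal 0 1) =
      Complex.exp (-t ^ 2 / 2) := fun t => by
    rw [← charFun_apply_real, charFun_gaussianReal]
    simp [neg_div]
  simp only [Complex.ofReal_sum, Complex.ofReal_mul, Complex.ofReal_pow, sum_mul, ← sum_neg_distrib,
    sum_div, Complex.exp_sum, ← h]
  exact integral_fintype_prod_eq_prod fun k (x : ℝ) => Complex.exp (c k * x * Complex.I)

lemma sq1 {θ : ℝ} (h1 : θ < 1 / 2) :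
    Integrable (fun x => Real.exp (θ * x ^ 2)) (gaussianReal 0 1) ∧
      ∫ x, Real.exp (θ * x ^ 2) ∂(gaussianReal 0 1) ≤ Real.exp (θ / (1 - 2 * θ)) := by
  have p : 0 < 1 - 2 * θ := by linarith
  have e : ∫ x, Real.exp (θ * x ^ 2) ∂(gaussianReal 0 1) = √(1 / (1 - 2 * θ)) := by
    have e1 : ∀ x, gaussianPDFReal 0 1 x • Real.exp (θ * x ^ 2) =
        (√(2 * Real.pi))⁻¹ * Real.exp (-(1 / 2 - θ) * x ^ 2) := fun x => by
      rw [gaussianPDFReal, smul_eq_mul, mul_assoc, ← Real.exp_add, NNReal.coe_one, mul_one]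
      congr 2
      ring
    rw [integral_gaussianReal_eq_integral_smul one_ne_zero]
    simp only [e1]
    rw [integral_const_mul, integral_gaussian, ← Real.sqrt_inv, ← Real.sqrt_mul (by positivity)]
    congr 1
    have := Real.pi_pos
    have : 0 < 1 / 2 - θ := by linarith
    field_simp
  refine ⟨.of_integral_ne_zero (e ▸ (Real.sqrt_pos.2 (by positivity)).ne'), e.trans_le ?_⟩
  rw [Real.sqrt_le_iff, ← Real.exp_nat_mul]
  refine ⟨(Real.exp_pos _).le, le_trans (le_of_eq ?_) (Real.add_one_le_exp _)⟩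
  field_simp
  push_cast
  ring

end GauX

open GauX

/-- a matrix with orthonormal rows preserves the Gaussian law -/
theorem mp_orth [DecidableEq κ] (L : κ → α → ℝ)
    (h : ∀ b b', ∑ a, L b a * L b' a = if b = b' then 1 else 0) :
    MeasurePreserving (fun (y : α → ℝ) (b : κ) => ∑ a, L b a * y a) (gI α) (gI κ) := by
  have hm : Measurable fun (y : α → ℝ) (b : κ) => ∑ a, L b a * y a := by fun_prop
  refine ⟨hm, Measure.ext_of_charFunDual (funext fun T => ?_)⟩
  have e : ∀ z, T z = ∑ b, T (Pi.single b 1) * z b := fun z => by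
    conv_lhs => rw [pi_eq_sum_univ' z]
    simp only [map_sum, map_smul, smul_eq_mul, mul_comm]
  rw [charFunDual_apply, charFunDual_apply, integral_map hm.aemeasurable (by fun_prop)]
  have e2 : ∀ y : α → ℝ, ∑ b, T (Pi.single b 1) * ∑ a, L b a * y a =
      ∑ a, (∑ b, T (Pi.single b 1) * L b a) * y a := fun y => by
    simp only [mul_sum, sum_mul, mul_assoc]
    exact sum_comm
  rw [integral_congr_ae (.of_forall fun y => by rw [e, e2]), chr,
    integral_congr_ae (.of_forall fun y => by rw [e]), chr]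
  congr 4
  simp only [sq, sum_mul_sum]
  rw [sum_comm]
  refine sum_congr rfl fun b _ => ?_
  rw [sum_comm]
  simp only [mul_mul_mul_comm _ (L _ _), ← mul_sum, h]
  simp

/-- the tail of a sum of squares -/
theorem tail_sq (S : Finset α) {θ : ℝ} (h0 : 0 < θ) (h1 : θ < 1 / 2) (a : ℝ) :
    gI α {y | a ≤ ∑ k ∈ S, y k ^ 2} ≤
      ENNReal.ofReal (Real.exp (S.card * (θ / (1 - 2 * θ)) - θ * a)) := by
  classical
  have e : ∀ y : α → ℝ, Real.exp (θ * ∑ k ∈ S, y k ^ 2) =
      ∏ k, Real.exp ((if k ∈ S then θ else 0) * y k ^ 2) := fun y => by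
    rw [← Real.exp_sum]
    simp [mul_sum]
  have h : ∀ k, (if k ∈ S then θ else 0) < 1 / 2 := fun k => by split_ifs <;> linarith
  rw [← ofReal_measureReal]
  refine ENNReal.ofReal_le_ofReal ((measure_ge_le_exp_mul_mgf a h0.le ?_).trans ?_)
  · simp only [e]
    exact Integrable.fintype_prod (f := fun k x => Real.exp ((if k ∈ S then θ else 0) * x ^ 2))
      fun k => (sq1 (h k)).1
  rw [sub_eq_neg_add, Real.exp_add, neg_mul]
  refine mul_le_mul_of_nonneg_left ?_ (Real.exp_pos _).le
  simp only [mgf, e]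
  refine (integral_fintype_prod_eq_prod fun k (x : ℝ) =>
    Real.exp ((if k ∈ S then θ else 0) * x ^ 2)).trans_le ((prod_le_prod
      (fun k _ => integral_nonneg fun x => (Real.exp_pos _).le) fun k _ => (sq1 (h k)).2).trans_eq ?_)
  rw [← Real.exp_sum, sum_congr rfl fun k _ =>
    show _ = if k ∈ S then θ / (1 - 2 * θ) else 0 by split_ifs <;> simp]
  simp

end Vale.Agent.P150
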