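import Vale.Agent.P150.Ent
import Vale.Agent.P150.Gau

/-! One step of the Gaussian channel (job Chan). -/

namespace Vale.Agent.P150

open Finset Function MeasureTheory

variable {ι : Type} [Fintype ι] [DecidableEq ι]

namespace ChanA

section gauss
variable {X α : Type} [Fintype X] [Fintype α]

lemma linint (d : X → ℝ) (c : X → α → ℝ) :
    Integrable (fun y : α → ℝ => ∑ x, d x * Real.exp (∑ k, c x k * y k)) (gI α) ∧
    ∫ y, ∑ x, d x * Real.exp (∑ k, c x k * y k) ∂(gI α) =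
      ∑ x, d x * Real.exp ((∑ k, c x k ^ 2) / 2) := by
  have i : ∀ x, Integrable (fun y : α → ℝ => d x * Real.exp (∑ k, c x k * y k)) (gI α) :=
    fun x => (int_exp_lin _).const_mul _
  refine ⟨integrable_finsetSum _ fun x _ => i x, ?_⟩
  rw [integral_finsetSum _ fun x _ => i x]
  simp only [integral_const_mul, mgf_lin]

lemma sqint (d : X → ℝ) (c : X → α → ℝ) :
    Integrable (fun y : α → ℝ => (∑ x, d x * Real.exp (∑ k, c x k * y k)) ^ 2) (gI α) ∧
    ∫ y, (∑ x, d x * Real.exp (∑ k, c x k * y k)) ^ 2 ∂(gI α) =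
      ∑ x, ∑ x', d x * d x' * Real.exp ((∑ k, (c x k + c x' k) ^ 2) / 2) := by
  have e : ∀ y : α → ℝ, (∑ x, d x * Real.exp (∑ k, c x k * y k)) ^ 2 =
      ∑ p : X × X, d p.1 * d p.2 * Real.exp (∑ k, (c p.1 k + c p.2 k) * y k) := fun y => by
    rw [sq, sum_mul_sum, Fintype.sum_prod_type]
    refine sum_congr rfl fun x _ => sum_congr rfl fun x' _ => ?_
    simp only [add_mul, sum_add_distrib, Real.exp_add]
    ring
  simp only [e]
  have := linint (fun p : X × X => d p.1 * d p.2) fun p k => c p.1 k + c p.2 k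
  rwa [Fintype.sum_prod_type] at this

lemma quad {d : X → ℝ} (hd : ∑ x, d x = 0) {v : X → α → ℝ} {R ε : ℝ}
    (hv : ∀ x, ∑ k, v x k ^ 2 ≤ R) (h0 : 0 ≤ ε) (h1 : ε * R ≤ 1) :
    ∑ x, ∑ x', d x * d x' * Real.exp (ε * ∑ k, v x k * v x' k) ≤
      ε * ∑ k, (∑ x, d x * v x k) ^ 2 + (ε * R) ^ 2 * (∑ x, |d x|) ^ 2 := by
  have e1 : ∑ k, (∑ x, d x * v x k) ^ 2 = ∑ x, ∑ x', d x * d x' * ∑ k, v x k * v x' k := by
    simp only [sq, sum_mul_sum]
    simp only [mul_sum]
    rw [sum_comm]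
    refine sum_congr rfl fun x _ => ?_
    rw [sum_comm]
    exact sum_congr rfl fun x' _ => sum_congr rfl fun k _ => by ring
  have e2 : ∑ x, ∑ x', d x * d x' = 0 := by rw [← sum_mul_sum, hd, zero_mul]
  rw [e1, sq (∑ x, |d x|), sum_mul_sum, ← zero_add (ε * _), ← e2]
  simp only [mul_sum, ← sum_add_distrib]
  refine sum_le_sum fun x _ => sum_le_sum fun x' _ => ?_
  simp only [← mul_sum]
  have b : |∑ k, v x k * v x' k| ≤ R := by
    refine (abs_sum_le_sum_abs _ _).trans ?_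
    have : ∑ k, |v x k * v x' k| ≤ ∑ k, (v x k ^ 2 + v x' k ^ 2) / 2 := sum_le_sum fun k _ => by
      rw [abs_le]
      constructor <;> nlinarith [sq_nonneg (v x k + v x' k), sq_nonneg (v x k - v x' k)]
    rw [← sum_div, sum_add_distrib] at this
    linarith [hv x, hv x']
  generalize ∑ k, v x k * v x' k = z at b
  have b2 : |ε * z| ≤ ε * R := by
    rw [abs_mul, abs_of_nonneg h0]; exact mul_le_mul_of_nonneg_left b h0
  have b3 := (Real.abs_exp_sub_one_sub_id_le (b2.trans h1)).trans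
    ((sq_abs _).symm.le.trans (pow_le_pow_left₀ (abs_nonneg _) b2 2))
  have b4 := (le_abs_self (d x * d x' * (Real.exp (ε * z) - 1 - ε * z))).trans
    ((abs_mul _ _).le.trans (mul_le_mul_of_nonneg_left b3 (abs_nonneg _)))
  rw [abs_mul] at b4
  linarith

end gauss

lemma ptw {w l f : (ι → Bool) → ℝ} (hw : ∀ x, 0 < w x) (hl : ∀ x, 0 < l x) (hf : ∀ x, 0 < f x)
    {C M : ℝ} (hC : 0 ≤ C) (hA : AT (fun x => w x * l x) C) (hM : 0 < M)
    (hM' : M ≤ ∑ x, w x * l x) :
    ∑ x, w x * (f x * Real.log (f x) - (f x - 1) - C * ∑ i, (f x * (Real.log (f x) -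
      Real.log (Qw w i f x)) - f x + Qw w i f x)) * l x ≤
        (∑ x, w x * (f x - 1) * l x) ^ 2 / M := by
  have hw' : ∀ x, 0 < w x * l x := fun x => mul_pos (hw x) (hl x)
  have h1 := (hA f hf).trans (mul_le_mul_of_nonneg_left (sum_le_sum fun i _ =>
    EntI_le hw' hf i (Qw_pos hw hf i) (Qw_upd w i f)) hC)
  have hZ := sum_pos' hw'
  have hF : 0 < ∑ x, w x * l x * f x := sum_pos' fun x => mul_pos (hw' x) (hf x)
  have h2 := mul_le_mul_of_nonneg_left (Real.log_le_sub_one_of_pos (div_pos hF hZ)) hF.le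
  have e1 : ∑ x, w x * (f x - 1) * l x = ∑ x, w x * l x * f x - ∑ x, w x * l x := by
    rw [← sum_sub_distrib]; exact sum_congr rfl fun x _ => by ring
  have e2 : ∑ x, w x * (f x * Real.log (f x) - (f x - 1) - C * ∑ i, (f x * (Real.log (f x) -
      Real.log (Qw w i f x)) - f x + Qw w i f x)) * l x =
      ∑ x, w x * l x * (f x * Real.log (f x)) - ∑ x, w x * (f x - 1) * l x -
        C * ∑ i, ∑ x, w x * l x * (f x * (Real.log (f x) -
          Real.log (Qw w i f x)) - f x + Qw w i f x) := by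
    rw [sum_comm, mul_sum, ← sum_sub_distrib, ← sum_sub_distrib]
    refine sum_congr rfl fun x _ => ?_
    rw [← mul_sum]
    ring
  rw [e2, e1]
  unfold Ent at h1
  refine le_trans ?_ (div_le_div_of_nonneg_left (sq_nonneg _) hM hM')
  generalize ∑ x, w x * l x * f x = F at *
  generalize ∑ x, w x * l x = Z at *
  have : (F - Z) ^ 2 / Z = F * (F / Z - 1) - (F - Z) := by field_simp
  linarith

lemma chan1 {J J' B : ι → ι → ℝ} {ε K C : ℝ}
    (hB : ∀ u : ι → ℝ, ∑ k, (∑ i, B k i * u i) ^ 2 = ∑ i, ∑ j, J i j * u i * u j + ∑ i, u i ^ 2)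
    (hB2 : ∀ u : ι → ℝ, ∑ k, (∑ i, B k i * u i) ^ 2 ≤ 2 * ∑ i, u i ^ 2)
    (h0 : 0 < ε) (h1 : 256 * (Fintype.card ι : ℝ) ^ 2 * ε ≤ 1) (hK : 0 ≤ K) (hC : 0 ≤ C)
    (hA : ∀ h, AT (W (fun i j => J' i j - ε * J i j) h) C) {h : ι → ℝ} (hE : ES (W J' h) K)
    {f : (ι → Bool) → ℝ} (hf : ∀ x, 0 < f x) (hn : ∑ x, W J' h x * f x = ∑ x, W J' h x) :
    (1 - (8 * K + 2) * ε) * Ent (W J' h) f ≤ C * ∑ i, EntI (W J' h) i f := by
  have hw := W_pos J' h
  obtain ⟨a, ha⟩ : ∃ a : (ι → Bool) → ι → ℝ, ∀ x k, a x k = ∑ i, B k i * sp (x i) :=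
    ⟨_, fun _ _ => rfl⟩
  have hAT : ∀ y : ι → ℝ, AT (fun x => W J' h x * (Real.exp (-(ε * (∑ k, a x k ^ 2) / 2)) *
      Real.exp (∑ k, √ε * a x k * y k))) C := fun y => by
    convert (hA fun i => h i + √ε * ∑ k, B k i * y k).smul
      (Real.exp_pos (-(ε * Fintype.card ι / 2))) using 2 with x
    simp only [W, ← Real.exp_add, ha, hB, sp_sq, sum_const, card_univ, nsmul_eq_mul, mul_one]
    congr 1
    have e1 : ∑ k, √ε * (∑ i, B k i * sp (x i)) * y k =
        ∑ i, √ε * (∑ k, B k i * y k) * sp (x i) := by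
      simp only [mul_sum, sum_mul]
      rw [sum_comm]
      exact sum_congr rfl fun i _ => sum_congr rfl fun k _ => by ring
    simp only [e1, add_mul, sub_mul, sum_add_distrib, sum_sub_distrib, mul_assoc ε, ← mul_sum]
    ring
  have hE1 := hE f hf hn
  have hE2 := hell hw hf hn
  have hE0 := Ent_nonneg hw hf
  generalize W J' h = w at *
  have hZ := sum_pos' hw
  obtain ⟨m, hm⟩ : ∃ m : ι → ℝ, ∀ i, m i = (∑ x, w x * sp (x i)) / ∑ x, w x :=
    ⟨_, fun _ => rfl⟩
  obtain ⟨b, hb⟩ : ∃ b : ι → ℝ, ∀ k, b k = ∑ i, B k i * m i := ⟨_, fun _ => rfl⟩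
  obtain ⟨n, hn'⟩ : ∃ n : ℝ, n = Fintype.card ι := ⟨_, rfl⟩
  have n1 : n ≤ n ^ 2 := by rw [hn']; exact_mod_cast Nat.le_self_pow two_ne_zero _
  have n0 : 0 ≤ n := hn' ▸ Nat.cast_nonneg _
  rw [← hn'] at h1
  have en : ε * n ≤ 1 / 256 := by nlinarith
  have a2 : ∀ x, ∑ k, a x k ^ 2 ≤ 2 * n := fun x => by
    simpa [ha, hn'] using hB2 fun i => sp (x i)
  have mb : ∀ i, |m i| ≤ 1 := fun i => by
    rw [hm, abs_div, abs_of_pos hZ, div_le_one hZ]
    refine (abs_sum_le_sum_abs _ _).trans (sum_le_sum fun x _ => ?_)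
    rw [abs_mul, abs_sp, mul_one, abs_of_pos (hw x)]
  have ab : ∀ x, ∑ k, (a x k - b k) ^ 2 ≤ 8 * n := fun x => by
    have := hB2 fun i => sp (x i) - m i
    simp only [mul_sub, sum_sub_distrib, ← ha, ← hb] at this
    have h3 : ∑ i, (sp (x i) - m i) ^ 2 ≤ ∑ _i : ι, (4 : ℝ) := sum_le_sum fun i _ => by
      have := abs_le.1 (mb i)
      have := abs_le.1 (abs_sp (x i)).le
      nlinarith
    rw [sum_const, card_univ, nsmul_eq_mul, ← hn'] at h3
    linarith
  have wa : ∀ k, ∑ x, w x * a x k = (∑ x, w x) * b k := fun k => by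
    simp only [ha, hb, hm, mul_sum (s := univ) (f := fun i => B k i * _)]
    rw [sum_comm]
    refine sum_congr rfl fun i _ => ?_
    simp only [mul_left_comm _ (B k i), ← mul_sum]
    rw [mul_div_cancel₀ _ hZ.ne']
  have pt : ∀ y : ι → ℝ, ∑ x, w x * (f x * Real.log (f x) - (f x - 1) - C * ∑ i, (f x *
      (Real.log (f x) - Real.log (Qw w i f x)) - f x + Qw w i f x)) *
        Real.exp (-(ε * (∑ k, a x k ^ 2) / 2)) * Real.exp (∑ k, √ε * a x k * y k) ≤
      Real.exp (ε * n) / (∑ x, w x) * (∑ x, w x * (f x - 1) *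
        Real.exp (-(ε * (∑ k, a x k ^ 2) / 2)) *
          Real.exp (∑ k, √ε * (a x k - b k / 2) * y k)) ^ 2 := fun y => by
    have h2 := ptw hw (fun x => mul_pos (Real.exp_pos _) (Real.exp_pos _)) hf hC (hAT y)
      (M := (∑ x, w x) * Real.exp (∑ k, √ε * b k * y k - ε * n)) (by positivity) (by
        have e : ∑ x, w x * ∑ k, √ε * a x k * y k = ∑ x, w x * ∑ k, √ε * b k * y k := by
          rw [← sum_mul, mul_sum]
          simp only [mul_sum univ _ (w _)]
          rw [sum_comm]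
          refine sum_congr rfl fun k _ => ?_
          rw [show (∑ x, w x) * (√ε * b k * y k) = √ε * y k * ((∑ x, w x) * b k) by ring, ← wa,
            mul_sum]
          exact sum_congr rfl fun x _ => by ring
        generalize ∑ k, √ε * b k * y k = s at e ⊢
        have : ∑ x, w x * (Real.exp (s - ε * n) * (1 + (∑ k, √ε * a x k * y k - s))) ≤ _ :=
          sum_le_sum (g := fun x => w x * (Real.exp (-(ε * (∑ k, a x k ^ 2) / 2)) *
            Real.exp (∑ k, √ε * a x k * y k))) fun x _ => by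
          refine mul_le_mul_of_nonneg_left ?_ (hw x).le
          refine (mul_le_mul_of_nonneg_left ((add_comm _ _).le.trans (Real.add_one_le_exp _))
            (Real.exp_pos _).le).trans ?_
          rw [← Real.exp_add, ← Real.exp_add, Real.exp_le_exp]
          nlinarith [a2 x]
        refine le_trans (le_of_eq ?_) this
        simp only [mul_left_comm (w _)]
        rw [← mul_sum]
        simp only [mul_add, mul_sub, mul_one, sum_add_distrib, sum_sub_distrib, e]
        ring)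
    simp only [← mul_assoc] at h2
    refine h2.trans (le_of_eq ?_)
    have e : ∀ x, ∑ k, √ε * a x k * y k =
        ∑ k, √ε * (a x k - b k / 2) * y k + (∑ k, √ε * b k * y k) / 2 := fun x => by
      rw [sum_div, ← sum_add_distrib]; exact sum_congr rfl fun k _ => by ring
    simp only [e, Real.exp_add, ← mul_assoc, ← sum_mul, mul_pow]
    rw [← Real.exp_nat_mul, Real.exp_sub, Nat.cast_ofNat, mul_div_cancel₀ _ two_ne_zero]
    field_simp
  have i1 := linint (fun x => w x * (f x * Real.log (f x) - (f x - 1) - C * ∑ i, (f x *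
      (Real.log (f x) - Real.log (Qw w i f x)) - f x + Qw w i f x)) *
        Real.exp (-(ε * (∑ k, a x k ^ 2) / 2))) fun x k => √ε * a x k
  have i2 := sqint (fun x => w x * (f x - 1) * Real.exp (-(ε * (∑ k, a x k ^ 2) / 2)))
    fun x k => √ε * (a x k - b k / 2)
  have h2 := integral_mono i1.1 (i2.1.const_mul _) pt
  rw [integral_const_mul, i1.2, i2.2] at h2
  clear i1 i2 pt hAT
  have d0 : ∑ x, w x * (f x - 1) = 0 := by simp only [mul_sub, mul_one, sum_sub_distrib, hn, sub_self]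
  have h3 := quad d0 ab h0.le (by linarith)
  have e1 : ∀ k, ∑ x, w x * (f x - 1) * (a x k - b k) =
      ∑ i, B k i * ∑ x, w x * (f x - 1) * sp (x i) := fun k => by
    simp only [mul_sub (_ * _), sum_sub_distrib, ← sum_mul, d0, zero_mul, sub_zero, ha, mul_sum]
    rw [sum_comm]
    exact sum_congr rfl fun i _ => sum_congr rfl fun x _ => by ring
  have e2 : ∑ x, |w x * (f x - 1)| = ∑ x, w x * |f x - 1| :=
    sum_congr rfl fun x _ => by rw [abs_mul, abs_of_pos (hw x)]
  have e3 : ∀ x x', w x * (f x - 1) * Real.exp (-(ε * (∑ k, a x k ^ 2) / 2)) *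
      (w x' * (f x' - 1) * Real.exp (-(ε * (∑ k, a x' k ^ 2) / 2))) *
      Real.exp ((∑ k, (√ε * (a x k - b k / 2) + √ε * (a x' k - b k / 2)) ^ 2) / 2) =
      Real.exp (-(ε * (∑ k, b k ^ 2) / 2)) * (w x * (f x - 1) * (w x' * (f x' - 1)) *
        Real.exp (ε * ∑ k, (a x k - b k) * (a x' k - b k))) := fun x x' => by
    have : ∑ k, (√ε * (a x k - b k / 2) + √ε * (a x' k - b k / 2)) ^ 2 =
        ε * ∑ k, a x k ^ 2 + ε * ∑ k, a x' k ^ 2 - ε * ∑ k, b k ^ 2 +
          2 * (ε * ∑ k, (a x k - b k) * (a x' k - b k)) := by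
      simp only [mul_sum, ← sum_add_distrib, ← sum_sub_distrib, ← mul_add, mul_pow,
        Real.sq_sqrt h0.le]
      exact sum_congr rfl fun k _ => by ring
    rw [this]
    generalize ε * ∑ k, a x k ^ 2 = p
    generalize ε * ∑ k, a x' k ^ 2 = q
    generalize ε * ∑ k, b k ^ 2 = r
    generalize ε * ∑ k, (a x k - b k) * (a x' k - b k) = s
    have : Real.exp (-(p / 2)) * Real.exp (-(q / 2)) * Real.exp ((p + q - r + 2 * s) / 2) =
        Real.exp (-(r / 2)) * Real.exp s := by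
      simp only [← Real.exp_add]; congr 1; ring
    linear_combination w x * (f x - 1) * (w x' * (f x' - 1)) * this
  have e4 : ∀ x, ∀ p : ℝ, p * Real.exp (-(ε * (∑ k, a x k ^ 2) / 2)) *
      Real.exp ((∑ k, (√ε * a x k) ^ 2) / 2) = p := fun x p => by
    simp only [mul_pow, Real.sq_sqrt h0.le, ← mul_sum]
    rw [mul_assoc, ← Real.exp_add, neg_add_cancel, Real.exp_zero, mul_one]
  have e5 : ∑ x, w x * (f x * Real.log (f x) - (f x - 1) - C * ∑ i, (f x *
      (Real.log (f x) - Real.log (Qw w i f x)) - f x + Qw w i f x)) =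
      Ent w f - C * ∑ i, EntI w i f := by
    have q : ∀ i, ∑ x, w x * Qw w i f x = ∑ x, w x * f x := fun i => by
      simpa using sum_Qw hw i f (c := fun _ => 1) fun _ _ => rfl
    have q2 : ∑ x, w x * (C * ∑ i, (f x *
        (Real.log (f x) - Real.log (Qw w i f x)) - f x + Qw w i f x)) =
        C * ∑ i, EntI w i f := by
      simp only [mul_left_comm (w _) C, ← mul_sum (a := C)]
      congr 1
      simp only [mul_sum]
      rw [sum_comm]
      refine sum_congr rfl fun i _ => ?_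
      simp only [EntI, mul_add (w _), mul_sub (w _), sum_add_distrib, sum_sub_distrib, q]
      ring
    rw [Ent, hn, div_self hZ.ne', Real.log_one, mul_zero, sub_zero, ← q2,
      ← sub_zero (∑ x, w x * (f x * Real.log (f x))), ← d0, ← sum_sub_distrib, ← sum_sub_distrib]
    exact sum_congr rfl fun x _ => by ring
  simp only [e3, e4, ← mul_sum univ _ (Real.exp _), e5] at h2
  simp only [e1, e2] at h3
  have h4 := hB2 fun i => ∑ x, w x * (f x - 1) * sp (x i)
  have h5 : ∑ x, ∑ x', w x * (f x - 1) * (w x' * (f x' - 1)) *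
      Real.exp (ε * ∑ k, (a x k - b k) * (a x' k - b k)) ≤
      (4 * K + 1) * ε * Ent w f * ∑ x, w x := by
    have p1 := mul_le_mul_of_nonneg_left (h4.trans (mul_le_mul_of_nonneg_left hE1 two_pos.le))
      h0.le
    have p2 := mul_le_mul_of_nonneg_left hE2 (sq_nonneg (ε * (8 * n)))
    have p3 := mul_le_mul_of_nonneg_left h1 (mul_nonneg (mul_nonneg h0.le hE0) hZ.le)
    linarith
  have h6 : Real.exp (ε * n) ≤ 2 := by
    have := abs_le.1 (Real.abs_exp_sub_one_le (x := ε * n)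
      (by rw [abs_of_nonneg (by positivity)]; linarith))
    rw [abs_of_nonneg (by positivity)] at this
    linarith
  have h7 : Real.exp (-(ε * (∑ k, b k ^ 2) / 2)) ≤ 1 := by
    rw [Real.exp_le_one_iff, neg_nonpos]
    positivity
  have h8 : 0 ≤ (4 * K + 1) * ε * Ent w f * ∑ x, w x := by positivity
  have h9 := (mul_le_mul_of_nonneg_left h5 (Real.exp_pos _).le).trans
    (mul_le_of_le_one_left h8 h7)
  have h10 := h2.trans ((mul_le_mul_of_nonneg_left h9 (by positivity)).trans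
    (mul_le_mul_of_nonneg_right (div_le_div_of_nonneg_right h6 hZ.le) h8))
  rw [mul_comm (2 / _), mul_assoc, mul_div_cancel₀ _ hZ.ne'] at h10
  linarith

end ChanA

theorem chan {J J' B : ι → ι → ℝ} {ε K C : ℝ}
    (hB : ∀ u : ι → ℝ, ∑ k, (∑ i, B k i * u i) ^ 2 = ∑ i, ∑ j, J i j * u i * u j + ∑ i, u i ^ 2)
    (hB2 : ∀ u : ι → ℝ, ∑ k, (∑ i, B k i * u i) ^ 2 ≤ 2 * ∑ i, u i ^ 2)
    (h0 : 0 < ε) (h1 : 256 * (Fintype.card ι : ℝ) ^ 2 * ε ≤ 1) (hK : 0 ≤ K) (hC : 0 ≤ C)
    (hA : ∀ h, AT (W (fun i j => J' i j - ε * J i j) h) C) {h : ι → ℝ} (hE : ES (W J' h) K)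
    {f : (ι → Bool) → ℝ} (hf : ∀ x, 0 < f x) :
    (1 - (8 * K + 2) * ε) * Ent (W J' h) f ≤ C * ∑ i, EntI (W J' h) i f := by
  have hw := W_pos J' h
  have hF : 0 < ∑ x, W J' h x * f x := sum_pos' fun x => mul_pos (hw x) (hf x)
  have hc := div_pos (sum_pos' hw) hF
  have := ChanA.chan1 hB hB2 h0 h1 hK hC hA hE (fun x => mul_pos hc (hf x)) (by
    simp only [mul_left_comm (W J' h _), ← mul_sum]
    exact div_mul_cancel₀ _ hF.ne')
  simp only [Ent_smul hw hf hc, EntI_smul hw hf hc, ← mul_sum] at this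
  refine le_of_mul_le_mul_left ?_ hc
  linarith

end Vale.Agent.P150
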