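import Vale.Agent.P150.Ent
import Vale.Agent.P150.Boch

/-! From the Poincare inequality for all fields to entropic stability (job Cov). -/

namespace Vale.Agent.P150

open Finset Function

variable {ι : Type} [Fintype ι] [DecidableEq ι] {J : ι → ι → ℝ} {γ : ℝ}

namespace CovX

lemma lin_upd (v : ι → ℝ) (i : ι) (x : ι → Bool) (b : Bool) :
    ∑ k, v k * sp (update x i b k) = ∑ k, v k * sp (x k) + v i * (sp b - sp (x i)) := by
  rw [← add_sum_erase univ _ (mem_univ i), ← add_sum_erase univ (fun k => v k * sp (x k))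
    (mem_univ i), update_self, sum_congr rfl fun k hk => by rw [update_of_ne (ne_of_mem_erase hk)]]
  ring

lemma anti {g g' : ℝ → ℝ} (hd : ∀ s, HasDerivAt g (g' s) s) (h0 : ∀ s, 0 ≤ s → g' s ≤ 0) {s : ℝ}
    (hs : 0 ≤ s) : g s ≤ g 0 := by
  have : AntitoneOn g (Set.Ici 0) := by
    refine antitoneOn_of_deriv_nonpos (convex_Ici 0)
      (fun x _ => (hd x).continuousAt.continuousWithinAt)
      (fun x _ => (hd x).differentiableAt.differentiableWithinAt) fun x hx => ?_
    rw [(hd x).deriv]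
    rw [interior_Ici] at hx
    exact h0 x (le_of_lt hx)
  exact this (Set.mem_Ici.2 le_rfl) hs hs

/-- a second-order bound for the log-Laplace transform -/
lemma lap {X : Type} [Fintype X] [Nonempty X] {w l : X → ℝ} (hw : ∀ x, 0 < w x) {K : ℝ}
    (hK : ∀ s : ℝ, ∑ x, w x * Real.exp (s * l x) * l x ^ 2 -
      (∑ x, w x * Real.exp (s * l x) * l x) ^ 2 / ∑ x, w x * Real.exp (s * l x) ≤
      K * ∑ x, w x * Real.exp (s * l x)) :
    Real.log ((∑ x, w x * Real.exp (l x)) / ∑ x, w x) ≤ (∑ x, w x * l x) / (∑ x, w x) + K / 2 := by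
  have hA : ∀ s : ℝ, 0 < ∑ x, w x * Real.exp (s * l x) := fun s =>
    sum_pos (fun x _ => mul_pos (hw x) (Real.exp_pos _)) univ_nonempty
  have dE : ∀ x s, HasDerivAt (fun s => Real.exp (s * l x)) (Real.exp (s * l x) * l x) s :=
    fun x s => by simpa using ((hasDerivAt_id s).mul_const (l x)).exp
  have dA : ∀ s, HasDerivAt (fun s => ∑ x, w x * Real.exp (s * l x))
      (∑ x, w x * Real.exp (s * l x) * l x) s := fun s => by
    have := HasDerivAt.fun_sum (u := univ) fun x _ => (dE x s).const_mul (w x)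
    simpa only [mul_assoc] using this
  have dB : ∀ s, HasDerivAt (fun s => ∑ x, w x * Real.exp (s * l x) * l x)
      (∑ x, w x * Real.exp (s * l x) * l x ^ 2) s := fun s => by
    have := HasDerivAt.fun_sum (u := univ) fun x _ => ((dE x s).const_mul (w x)).mul_const (l x)
    simpa only [mul_assoc, sq] using this
  set A := fun s => ∑ x, w x * Real.exp (s * l x) with hAd
  set B := fun s => ∑ x, w x * Real.exp (s * l x) * l x with hBd
  set C := fun s => ∑ x, w x * Real.exp (s * l x) * l x ^ 2 with hCd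
  have dm : ∀ s, HasDerivAt (fun s => B s / A s - K * s)
      ((C s * A s - B s * B s) / A s ^ 2 - K) s := fun s => by
    have := ((dB s).div (dA s) (hA s).ne').sub ((hasDerivAt_id s).const_mul K)
    rw [mul_one] at this
    exact this
  have h1 : ∀ s, 0 ≤ s → B s / A s - K * s ≤ B 0 / A 0 - K * 0 := fun s hs =>
    anti dm (fun s _ => by
      have h := hK s
      have hp : 0 < A s := hA s
      change C s - B s ^ 2 / A s ≤ K * A s at h
      have e : (C s * A s - B s * B s) / A s ^ 2 = (C s - B s ^ 2 / A s) / A s := by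
        field_simp
      rw [e, sub_nonpos, div_le_iff₀ hp]
      exact h) hs
  have dg : ∀ s, HasDerivAt (fun s => Real.log (A s) - B 0 / A 0 * s - K * (s ^ 2 / 2))
      (B s / A s - B 0 / A 0 - K * s) s := fun s => by
    have := (((dA s).log (hA s).ne').sub ((hasDerivAt_id s).const_mul (B 0 / A 0))).sub
      (((hasDerivAt_pow 2 s).div_const 2).const_mul K)
    have e : B s / A s - B 0 / A 0 - K * s =
        B s / A s - B 0 / A 0 * 1 - K * (((2 : ℕ) : ℝ) * s ^ (2 - 1) / 2) := by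
      norm_num
    rw [e]
    exact this
  have h2 := anti dg (fun s hs => by have := h1 s hs; linarith) zero_le_one
  have a0 : A 0 = ∑ x, w x := by simp [hAd]
  have a1 : A 1 = ∑ x, w x * Real.exp (l x) := by simp [hAd]
  have b0 : B 0 = ∑ x, w x * l x := by simp [hBd]
  have p0 : 0 < A 0 := hA 0
  have p1 : 0 < A 1 := hA 1
  rw [← a0, ← a1, ← b0, Real.log_div p1.ne' p0.ne']
  linarith

end CovX

lemma var_lin (hJ : Sym J) (hγ : 0 < γ) {h : ι → ℝ} (hP : PI (W J h) γ) (v : ι → ℝ) :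
    Var (W J h) (fun x => ∑ i, v i * sp (x i)) ≤ 1 / γ * (∑ i, v i ^ 2) * ∑ x, W J h x := by
  have h1 := hP fun x => ∑ i, v i * sp (x i)
  have hD : ∀ i x, DD i (fun x => ∑ i, v i * sp (x i)) x = v i := fun i x => by
    simp only [DD, CovX.lin_upd, sp_true, sp_false]
    ring
  have h2 : Dir (W J h) (fun x => ∑ i, v i * sp (x i)) ≤ (∑ i, v i ^ 2) * ∑ x, W J h x := by
    rw [Dir, sum_mul]
    refine sum_le_sum fun i _ => ?_
    rw [dir_eq hJ, mul_sum]
    refine sum_le_sum fun x _ => ?_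
    rw [vv, hD, mul_comm]
    refine mul_le_mul_of_nonneg_right ?_ (W_pos J h x).le
    nlinarith [sq_nonneg (tt J h i x), sq_nonneg (v i), mul_nonneg (sq_nonneg (tt J h i x)) (sq_nonneg (v i))]
  rw [mul_assoc, one_div, ← div_eq_inv_mul, le_div_iff₀ hγ]
  linarith

theorem laplace (hJ : Sym J) (hγ : 0 < γ) (hP : ∀ h, PI (W J h) γ) (h v : ι → ℝ) :
    Real.log ((∑ x, W J h x * Real.exp (∑ i, v i * sp (x i))) / ∑ x, W J h x) ≤
      (∑ x, W J h x * ∑ i, v i * sp (x i)) / (∑ x, W J h x) + 1 / γ * (∑ i, v i ^ 2) / 2 := by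
  refine CovX.lap (w := W J h) (l := fun x => ∑ i, v i * sp (x i)) (K := 1 / γ * ∑ i, v i ^ 2)
    (W_pos J h) fun s => ?_
  have e : ∀ x, W J h x * Real.exp (s * ∑ i, v i * sp (x i)) = W J (fun i => h i + s * v i) x :=
    fun x => by
      rw [W, W, ← Real.exp_add]
      congr 1
      simp only [add_mul, sum_add_distrib, mul_sum, mul_assoc, add_assoc]
  simp only [e]
  have := var_lin hJ hγ (hP fun i => h i + s * v i) v
  rw [Var] at this
  exact this

theorem es_of_pi (hJ : Sym J) (hγ : 0 < γ) (hP : ∀ h, PI (W J h) γ) (h : ι → ℝ) :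
    ES (W J h) (1 / γ) := by
  intro f hf h1
  have hw := W_pos J h
  have hZ := sum_pos' hw
  set Z := ∑ x, W J h x with hZd
  set Δ : ι → ℝ := fun i => ∑ x, W J h x * (f x - 1) * sp (x i) with hΔ
  set t : ℝ := γ / Z with ht
  have h2 := dv hw hf fun x => ∑ i, t * Δ i * sp (x i)
  have h3 := laplace hJ hγ hP h fun i => t * Δ i
  rw [h1, ← hZd] at h2
  rw [← hZd] at h3
  have h4 := mul_le_mul_of_nonneg_left h3 hZ.le
  have e1 : ∑ x, W J h x * (f x * ∑ i, t * Δ i * sp (x i)) -
      ∑ x, W J h x * ∑ i, t * Δ i * sp (x i) = t * ∑ i, Δ i ^ 2 := by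
    rw [← sum_sub_distrib]
    have : ∀ x, W J h x * (f x * ∑ i, t * Δ i * sp (x i)) - W J h x * ∑ i, t * Δ i * sp (x i) =
        ∑ i, t * Δ i * (W J h x * (f x - 1) * sp (x i)) := fun x => by
      rw [← mul_sub, ← sub_one_mul, mul_sum, mul_sum]
      exact sum_congr rfl fun i _ => by ring
    simp only [this]
    rw [sum_comm, mul_sum]
    exact sum_congr rfl fun i _ => by rw [← mul_sum]; simp only [hΔ]; ring
  have e2 : ∑ i, (t * Δ i) ^ 2 = t ^ 2 * ∑ i, Δ i ^ 2 := by simp only [mul_pow, ← mul_sum]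
  rw [e2, mul_add, mul_div_cancel₀ _ hZ.ne'] at h4
  change ∑ i, Δ i ^ 2 ≤ 2 * (1 / γ) * Z * Ent (W J h) f
  generalize ∑ i, Δ i ^ 2 = S at *
  have e3 : Z * (1 / γ * (t ^ 2 * S) / 2) = t * S / 2 := by rw [ht]; field_simp
  have h5 : t * S / 2 ≤ Ent (W J h) f := by linarith
  have e4 : S = 2 * (1 / γ) * Z * (t * S / 2) := by rw [ht]; field_simp
  rw [e4]
  exact mul_le_mul_of_nonneg_left h5 (by positivity)

end Vale.Agent.P150
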