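import Mathlib

/-! The Sherrington-Kirkpatrick model and its heat-bath dynamics (definitions). -/

namespace Vale.Agent.P150

open MeasureTheory ProbabilityTheory

/-- the spin `+1` or `-1` -/
def sp (b : Bool) : ℝ := if b = true then 1 else -1

/-- the pairs `i < j` -/
abbrev Pr (n : ℕ) : Type := {p : Fin n × Fin n // p.1 < p.2}

/-- independent standard Gaussians -/
noncomputable def gI (ι : Type) [Fintype ι] : Measure (ι → ℝ) :=
  Measure.pi fun _ => gaussianReal 0 1

variable {n : ℕ}

/-- the symmetric extension of the disorder -/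
def gs (g : Pr n → ℝ) (i j : Fin n) : ℝ :=
  if h : i < j then g ⟨(i, j), h⟩ else if h : j < i then g ⟨(j, i), h⟩ else 0

/-- the Boltzmann weight -/
noncomputable def wt (β : ℝ) (g : Pr n → ℝ) (x : Fin n → Bool) : ℝ :=
  Real.exp (β / √n * ∑ p : Pr n, g p * sp (x p.1.1) * sp (x p.1.2))

/-- the Gibbs measure -/
noncomputable def mu (β : ℝ) (g : Pr n → ℝ) (x : Fin n → Bool) : ℝ := wt β g x / ∑ y, wt β g y

/-- the local field -/
noncomputable def fld (β : ℝ) (g : Pr n → ℝ) (i : Fin n) (x : Fin n → Bool) : ℝ :=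
  β / √n * ∑ j ∈ Finset.univ.erase i, gs g i j * sp (x j)

/-- the kernel that resamples the spin `i` -/
noncomputable def Qk (β : ℝ) (g : Pr n → ℝ) (i : Fin n) :
    Matrix (Fin n → Bool) (Fin n → Bool) ℝ := fun x y =>
  ∑ b : Bool, if y = Function.update x i b then
    Real.exp (sp b * fld β g i x) / (2 * Real.cosh (fld β g i x)) else 0

/-- the generator -/
noncomputable def gen (β : ℝ) (g : Pr n → ℝ) : Matrix (Fin n → Bool) (Fin n → Bool) ℝ :=
  ∑ i, (Qk β g i - 1)

/-- the total variation distance from equilibrium at time `t`, started at `x` -/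
noncomputable def tvd (β : ℝ) (g : Pr n → ℝ) (t : ℝ) (x : Fin n → Bool) : ℝ :=
  (∑ y, |NormedSpace.exp (t • gen β g) x y - mu β g y|) / 2

/-- the mixing time -/
noncomputable def tmix (β : ℝ) (g : Pr n → ℝ) : ℝ :=
  sInf {t | 0 ≤ t ∧ ∀ x, tvd β g t x ≤ 1 / 4}

/-- the spectral gap: the least Rayleigh quotient of minus the generator on centred functions -/
noncomputable def gap (β : ℝ) (g : Pr n → ℝ) : ℝ :=
  sInf {r | ∃ f : (Fin n → Bool) → ℝ, ∑ x, mu β g x * f x = 0 ∧ ∑ x, mu β g x * f x ^ 2 = 1 ∧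
    r = -∑ x, mu β g x * (f x * (gen β g).mulVec f x)}

end Vale.Agent.P150
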