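import Vale.Agent.P150.Edge
import Vale.Agent.P150.Base

/-! The disorder is good with high probability (job Dis). -/

namespace Vale.Agent.P150

open Finset MeasureTheory Filter Topology

namespace DisA

lemma lim {c : ℝ} (hc : 0 < c) (K : ℝ) (m : ℕ) : Tendsto (fun n : ℕ =>
    (n : ENNReal) ^ m * ENNReal.ofReal (Real.exp (K - c * n))) atTop (𝓝 0) := by
  have h1 := ((Real.tendsto_pow_mul_exp_neg_atTop_nhds_zero m).comp
    (tendsto_natCast_atTop_atTop.const_mul_atTop hc)).const_mul (Real.exp K / c ^ m)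
  have h2 := ENNReal.tendsto_ofReal h1
  rw [mul_zero, ENNReal.ofReal_zero] at h2
  refine h2.congr fun n => ?_
  rw [← ENNReal.ofReal_natCast, ← ENNReal.ofReal_pow n.cast_nonneg,
    ← ENNReal.ofReal_mul (by positivity)]
  congr 1
  simp only [Function.comp, mul_pow, Real.exp_sub, Real.exp_neg]
  field_simp

lemma ub {α κ : Type} [Fintype α] [Fintype κ] {S : κ → Set (α → ℝ)} {b c : ENNReal}
    (h : ∀ i, gI α (S i) ≤ b) (hc : (Fintype.card κ : ENNReal) ≤ c) :
    gI α (⋃ i, S i) ≤ c * b := by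
  refine (measure_iUnion_fintype_le _ _).trans ((sum_le_sum fun i _ => h i).trans ?_)
  rw [sum_const, card_univ, nsmul_eq_mul]
  gcongr

lemma tail1 {α : Type} [Fintype α] (p : α) (a : ℝ) :
    gI α {y | a ≤ y p ^ 2} ≤ ENNReal.ofReal (Real.exp (1 / 2 - a / 4)) := by
  have := tail_sq {p} (θ := 1 / 4) (by norm_num) (by norm_num) a
  simp only [sum_singleton, card_singleton, Nat.cast_one] at this
  convert this using 3
  ring

lemma gs_eq {n : ℕ} (F : Pr n → ℝ) (i j : Fin n) : gs F i j =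
    (∑ p : Pr n, if p.1 = (i, j) then F p else 0) +
      ∑ p : Pr n, if p.1 = (j, i) then F p else 0 := by
  have aux : ∀ a b : Fin n, (∑ p : Pr n, if p.1 = (a, b) then F p else 0) =
      if h : a < b then F ⟨(a, b), h⟩ else 0 := fun a b => by
    split_ifs with h
    · rw [Fintype.sum_eq_single ⟨(a, b), h⟩ fun p hp => if_neg fun e => hp (Subtype.ext e),
        if_pos rfl]
    · exact sum_eq_zero fun p _ => if_neg fun e => h (by simpa [e] using p.2)
  rw [aux, aux, gs]
  split_ifs with h1 h2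
  · exact absurd h1 h2.not_gt
  · rw [add_zero]
  · rw [zero_add]
  · rw [add_zero]

lemma gs_row {n : ℕ} (F : Pr n → ℝ) (i : Fin n) :
    ∑ j, gs F i j = ∑ p ∈ univ.filter fun p : Pr n => p.1.1 = i ∨ p.1.2 = i, F p := by
  simp only [gs_eq, sum_add_distrib]
  rw [sum_comm, sum_comm (f := fun j (p : Pr n) => if p.1 = (j, i) then F p else 0), sum_filter,
    ← sum_add_distrib]
  refine sum_congr rfl fun p _ => ?_
  obtain ⟨⟨a, b⟩, h⟩ := p
  have hab : a ≠ b := ne_of_lt h
  by_cases h1 : a = i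
  · subst h1
    simp [hab.symm]
  · by_cases h2 : b = i
    · subst h2
      simp [hab]
    · simp [h1, h2]

lemma gs_map {n : ℕ} (φ : ℝ → ℝ) (h : φ 0 = 0) (g : Pr n → ℝ) (i j : Fin n) :
    gs (fun p => φ (g p)) i j = φ (gs g i j) := by
  unfold gs
  split_ifs <;> simp [h]

lemma gs_symm {n : ℕ} (g : Pr n → ℝ) (i j : Fin n) : gs g i j = gs g j i := by
  rw [gs_eq, gs_eq, add_comm]

lemma row_tail {n : ℕ} (i : Fin n) : gI (Pr n) {g | 2 * (n : ℝ) ≤ ∑ j, gs g i j ^ 2} ≤
    ENNReal.ofReal (Real.exp (0 - 1 / 12 * n)) := by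
  have h1 := tail_sq (univ.filter fun p : Pr n => p.1.1 = i ∨ p.1.2 = i) (θ := 1 / 8)
    (by norm_num) (by norm_num) (2 * n)
  have h2 := gs_row (fun _ => 1) i
  have h3 : ∑ j, gs (fun _ => 1) i j ≤ ∑ _j : Fin n, (1 : ℝ) := sum_le_sum fun j _ => by
    unfold gs
    split_ifs <;> norm_num
  simp only [sum_const, card_univ, Fintype.card_fin, nsmul_eq_mul, mul_one] at h2 h3
  simp only [← gs_row, ← h2] at h1
  simp only [← gs_map (· ^ 2) (by norm_num)]
  refine h1.trans (ENNReal.ofReal_le_ofReal (Real.exp_le_exp.2 ?_))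
  linarith

lemma eta {a : ℝ} (ha : 0 < a) {N n : ℕ} (hn : n ≤ N) : gI (Option (Fin n))
    {y | a * √N < √2 * y none ∨ ((1 + a) * √N) ^ 2 < ∑ k : Fin n, y (some k) ^ 2} ≤
    ENNReal.ofReal (Real.exp (1 / 2 - a ^ 2 / 8 * N)) +
      ENNReal.ofReal (Real.exp (0 - a ^ 2 / 2 * N)) := by
  have h1 := tail1 (none : Option (Fin n)) (a ^ 2 / 2 * N)
  have h2 := tail_sq (univ.map ⟨some, Option.some_injective (Fin n)⟩) (θ := a / (2 * (1 + a)))
    (by positivity) (by rw [div_lt_iff₀ (by positivity)]; linarith) ((1 + a) ^ 2 * N)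
  simp only [sum_map, card_map, card_univ, Fintype.card_fin, Function.Embedding.coeFn_mk] at h2
  refine le_trans (measure_mono ?_) ((measure_union_le _ _).trans (add_le_add
    (h1.trans (le_of_eq (by congr 2; ring)))
    (h2.trans (ENNReal.ofReal_le_ofReal (Real.exp_le_exp.2 ?_)))))
  · rintro y (h | h)
    · left
      have := pow_le_pow_left₀ (by positivity) h.le 2
      rw [mul_pow, mul_pow, Real.sq_sqrt N.cast_nonneg, Real.sq_sqrt two_pos.le] at this
      rw [Set.mem_ofPred_eq]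
      linarith
    · right
      rw [mul_pow, Real.sq_sqrt N.cast_nonneg] at h
      exact h.le
  · have e1 : a / (2 * (1 + a)) / (1 - 2 * (a / (2 * (1 + a)))) = a / 2 := by
      field_simp
      ring
    have e2 : a / (2 * (1 + a)) * ((1 + a) ^ 2 * N) = a * (1 + a) / 2 * N := by field_simp
    have e3 : (n : ℝ) ≤ N := by exact_mod_cast hn
    rw [e1, e2]
    nlinarith

lemma pull {n : ℕ} (c : ℝ) : gI (Pr n) {g | ¬ ∀ u : Fin n → ℝ,
    ∑ i, ∑ j, gs g i j * u i * u j ≤ c * ∑ i, u i ^ 2} =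
    gI (Fin n × Fin n) {M | ∃ u : Fin n → ℝ, c * ∑ i, u i ^ 2 <
      √2 * ∑ i, ∑ j, M (i, j) * u i * u j - ∑ i, √2 * M (i, i) * u i ^ 2} := by
  have h2 : (√2 : ℝ) * √2 = 2 := Real.mul_self_sqrt two_pos.le
  have h3 : (√2)⁻¹ * ((√2)⁻¹ : ℝ) = 1 / 2 := by rw [← mul_inv, h2, one_div]
  have e : ∀ (p : Pr n) (M : Fin n × Fin n → ℝ), ∑ q, (√2)⁻¹ * (EdgeA.ee p.1 q +
      EdgeA.ee p.1.swap q) * M q = (√2)⁻¹ * (M p.1 + M p.1.swap) := fun p M => by
    simp only [mul_assoc, ← mul_sum, add_mul, sum_add_distrib, EdgeA.ee_sum]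
  have mp := mp_orth (fun (p : Pr n) (q : Fin n × Fin n) =>
      (√2)⁻¹ * (EdgeA.ee p.1 q + EdgeA.ee p.1.swap q)) fun p p' => by
    rw [e]
    obtain ⟨⟨a, b⟩, h⟩ := p
    obtain ⟨⟨a', b'⟩, h'⟩ := p'
    have n1 : ¬ (a' = b ∧ b' = a) := by
      rintro ⟨rfl, rfl⟩
      exact absurd h h'.not_gt
    have n2 : ¬ (b' = a ∧ a' = b) := fun h => n1 h.symm
    by_cases h1 : a = a' ∧ b = b'
    · obtain ⟨rfl, rfl⟩ := h1
      simp only [EdgeA.ee, Prod.swap, Prod.mk.injEq, n1, n2, if_true, if_false]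
      linarith
    · have n3 : ¬ (a' = a ∧ b' = b) := fun h => h1 ⟨h.1.symm, h.2.symm⟩
      have n4 : ¬ (b' = b ∧ a' = a) := fun h => n3 h.symm
      simp [EdgeA.ee, n1, n2, n3, n4, h1]
  have cg : ∀ i j, Continuous fun g : Pr n → ℝ => gs g i j := fun i j => by
    unfold gs
    split_ifs <;> fun_prop
  rw [← mp.measure_preimage (IsOpen.measurableSet (by
    simp only [not_forall, not_le, Set.ofPred_exists]
    exact isOpen_iUnion fun x => isOpen_lt (by fun_prop) (by fun_prop))).nullMeasurableSet]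
  congr 1
  ext M
  simp only [Set.mem_preimage, Set.mem_ofPred_eq, not_forall, not_le, e]
  refine exists_congr fun u => iff_of_eq ?_
  congr 1
  have e2 : ∀ i j, gs (fun p : Pr n => (√2)⁻¹ * (M p.1 + M p.1.swap)) i j =
      (√2)⁻¹ * (M (i, j) + M (j, i)) - if i = j then √2 * M (i, i) else 0 := fun i j => by
    unfold gs
    rcases lt_trichotomy i j with h | rfl | h
    · simp [h, h.ne]
    · simp only [lt_irrefl, dite_false, if_true]
      field_simp
      linear_combination M (i, i) * h2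
    · simp [h, h.ne', h.not_gt, add_comm]
  have e3 : ∑ i, ∑ j, M (j, i) * u i * u j = ∑ i, ∑ j, M (i, j) * u i * u j := by
    rw [sum_comm]
    exact sum_congr rfl fun i _ => sum_congr rfl fun j _ => by ring
  simp only [e2, sub_mul, sum_sub_distrib, ite_mul, zero_mul, sum_ite_eq, mem_univ, if_true,
    mul_assoc (√2)⁻¹, ← mul_sum, add_mul, sum_add_distrib, e3]
  congr 1
  · field_simp
    linear_combination -(∑ i, ∑ j, M (i, j) * u i * u j) * h2
  · exact sum_congr rfl fun i _ => by ring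

end DisA

open DisA

theorem top_eig {ε : ℝ} (hε : 0 < ε) : Tendsto (fun n : ℕ => gI (Pr n) {g | ¬ ∀ u : Fin n → ℝ,
    ∑ i, ∑ j, gs g i j * u i * u j ≤ (2 + ε) * √n * ∑ i, u i ^ 2}) atTop (𝓝 0) := by
  obtain ⟨a, rfl⟩ : ∃ a, ε = 4 * a := ⟨ε / 4, by ring⟩
  have ha : 0 < a := by linarith
  have l1 := lim (c := a ^ 2 / 8) (by positivity) (1 / 2) 1
  have l2 := lim (c := a ^ 2 / 2) (by positivity) 0 1
  have l3 := (l1.add l2).add l1
  simp only [add_zero, pow_one] at l3
  refine tendsto_of_tendsto_of_tendsto_of_le_of_le' tendsto_const_nhds l3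
    (Eventually.of_forall fun _ => zero_le) ?_
  filter_upwards [eventually_gt_atTop 0] with n hn
  have hs : 0 < √(n : ℝ) := Real.sqrt_pos.2 (by exact_mod_cast hn)
  have h1 := edge (A := a * √n) (B := (1 + a) * √n) (by positivity) (N := n)
    (fun k hk => eta ha hk) n le_rfl 0 (by simp; positivity)
  have h2 := ub (κ := Fin n) (c := n) (fun i => tail1 (i, i) (a ^ 2 / 2 * n)) (by simp)
  rw [pull, ← mul_add]
  refine le_trans (measure_mono ?_) ((measure_union_le _ _).trans (add_le_add h1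
    (h2.trans (le_of_eq (by congr 3; ring)))))
  rintro M ⟨u, hu⟩
  by_contra h
  simp only [Set.mem_union, Bad, Set.mem_iUnion, Set.mem_ofPred_eq, not_or, not_exists, not_lt,
    not_le] at h
  have h3 := h.1 u
  have h4 : -∑ i, √2 * M (i, i) * u i ^ 2 ≤ a * √n * ∑ i, u i ^ 2 := by
    rw [mul_sum, ← sum_neg_distrib]
    refine sum_le_sum fun i _ => ?_
    rw [← neg_mul]
    refine mul_le_mul_of_nonneg_right (le_trans (neg_le_abs _) (abs_le_of_sq_le_sq ?_
      (by positivity))) (sq_nonneg _)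
    rw [mul_pow, mul_pow, Real.sq_sqrt n.cast_nonneg, Real.sq_sqrt two_pos.le]
    linarith [h.2 i]
  simp only [Pi.zero_apply, zero_mul, sum_const_zero, zero_pow two_ne_zero, zero_div] at h3
  have h5 : 0 ≤ a * √n * ∑ i, u i ^ 2 :=
    mul_nonneg (by positivity) (sum_nonneg fun _ _ => sq_nonneg _)
  linarith

theorem good_whp {β lam δ : ℝ} (h0 : 0 ≤ β) (h1 : 2 * β < lam) (h2 : lam ≤ 1) (hδ : 0 < δ) :
    Tendsto (fun n : ℕ => gI (Pr n) {g | ¬ Good lam δ fun i j => β / √n * gs g i j})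
      atTop (𝓝 0) := by
  obtain ⟨ε, hε, he⟩ : ∃ ε, 0 < ε ∧ (2 + ε) * β ≤ lam := ⟨lam - 2 * β, by linarith, by nlinarith⟩
  have l1 := top_eig hε
  have l3 := ((l1.add l1).add (lim (c := δ ^ 2 / 4) (by positivity) (1 / 2) 2)).add
    (lim (c := 1 / 12) (by positivity) 0 1)
  simp only [add_zero, pow_one] at l3
  refine tendsto_of_tendsto_of_tendsto_of_le_of_le' tendsto_const_nhds l3
    (Eventually.of_forall fun _ => zero_le) ?_
  filter_upwards [eventually_gt_atTop 0] with n hn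
  have hn' : (1 : ℝ) ≤ n := by exact_mod_cast hn
  have hs : 0 < √(n : ℝ) := Real.sqrt_pos.2 (by linarith)
  have mp := mp_orth (fun (p q : Pr n) => -EdgeA.ee p q) fun p p' => by
    simp only [neg_mul_neg, EdgeA.ee_sum]
    simp only [EdgeA.ee, eq_comm]
  simp only [neg_mul, sum_neg_distrib, EdgeA.ee_sum] at mp
  have h3 := ub (κ := Pr n) (c := (n : ENNReal) ^ 2) (fun p => tail1 p (δ ^ 2 * n)) (by
    have := Fintype.card_subtype_le fun p : Fin n × Fin n => p.1 < p.2
    rw [Fintype.card_prod, Fintype.card_fin, ← sq] at this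
    exact_mod_cast this)
  have h4 := ub (κ := Fin n) (c := n) row_tail (by simp)
  refine le_trans (measure_mono ?_) ((measure_union_le _ _).trans (add_le_add
    ((measure_union_le _ _).trans (add_le_add ((measure_union_le _ _).trans
      (add_le_add le_rfl (mp.measure_preimage_le _)))
      (h3.trans (le_of_eq (by congr 3; ring))))) h4))
  intro g hg
  by_contra h
  simp only [Set.mem_union, Set.mem_iUnion, Set.mem_ofPred_eq, not_or, not_exists, not_not,
    not_le, Set.mem_preimage, gs_map Neg.neg neg_zero, neg_mul, sum_neg_distrib] at h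
  obtain ⟨⟨⟨p1, p2⟩, p3⟩, p4⟩ := h
  have e : ∀ u : Fin n → ℝ, ∑ i, ∑ j, β / √n * gs g i j * u i * u j =
      β / √n * ∑ i, ∑ j, gs g i j * u i * u j := fun u => by simp only [mul_sum, mul_assoc]
  have p : ∀ u : Fin n → ℝ, 0 ≤ ∑ i, u i ^ 2 := fun u => sum_nonneg fun _ _ => sq_nonneg _
  have e2 : ∀ S : ℝ, β / √n * ((2 + ε) * √n * S) = (2 + ε) * β * S := fun S => by field_simp
  have e3 : (β / √n) ^ 2 = β ^ 2 / n := by rw [div_pow, Real.sq_sqrt n.cast_nonneg]
  have hb : 0 ≤ β / √n := by positivity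
  refine hg ⟨⟨fun i j => by rw [gs_symm], fun i => by simp [gs]⟩, fun u => ?_, fun u => ?_,
    fun i j => ?_, fun i => ?_⟩
  · have := mul_le_mul_of_nonneg_left (p1 u) hb
    rw [e2] at this
    rw [e]
    linarith [mul_le_mul_of_nonneg_right he (p u)]
  · have := mul_le_mul_of_nonneg_left (p2 u) hb
    rw [e2] at this
    rw [e]
    linarith [mul_le_mul_of_nonneg_right (he.trans h2) (p u)]
  · refine abs_le_of_sq_le_sq ?_ hδ.le
    have : gs g i j ^ 2 ≤ δ ^ 2 * n := by
      unfold gs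
      split_ifs
      · exact (p3 _).le
      · exact (p3 _).le
      · rw [zero_pow two_ne_zero]; positivity
    rw [mul_pow, e3, div_mul_eq_mul_div, div_le_iff₀ (by linarith)]
    exact (mul_le_of_le_one_left (sq_nonneg _) (by nlinarith)).trans this
  · simp only [mul_pow, ← mul_sum, e3]
    rw [div_mul_eq_mul_div, div_le_iff₀ (by linarith)]
    have := mul_le_mul_of_nonneg_left (p4 i).le (sq_nonneg β)
    have : β ^ 2 * 4 ≤ lam := by nlinarith
    nlinarith

end Vale.Agent.P150
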