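import Vale.Agent.P150.Gau

/-! The largest eigenvalue of a Gaussian matrix (job Edge). -/

namespace Vale.Agent.P150

open Finset MeasureTheory

/-- the quadratic form of `M` is large somewhere -/
def Bad (n : ℕ) (A B : ℝ) (v : Fin n → ℝ) : Set (Fin n × Fin n → ℝ) :=
  {M | ∃ x : Fin n → ℝ, (A + 2 * B) * ∑ i, x i ^ 2 - (∑ i, v i * x i) ^ 2 / B <
    √2 * ∑ i, ∑ j, M (i, j) * x i * x j}

namespace EdgeA

lemma house {n : ℕ} (v : Fin (n + 1) → ℝ) : ∃ O : Fin (n + 1) → Fin (n + 1) → ℝ,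
    (∀ a b, O a b = O b a) ∧ (∀ a b, ∑ i, O a i * O b i = if a = b then 1 else 0) ∧
    ∀ x : Fin (n + 1) → ℝ, ∑ i, v i * x i = √(∑ i, v i ^ 2) * ∑ i, O 0 i * x i := by
  obtain ⟨c, hc⟩ : ∃ c, c = √(∑ i, v i ^ 2) := ⟨_, rfl⟩
  have c2 : c ^ 2 = ∑ i, v i ^ 2 := by
    rw [hc, Real.sq_sqrt (sum_nonneg fun _ _ => sq_nonneg _)]
  rw [← hc]
  obtain ⟨w, hw⟩ : ∃ w : Fin (n + 1) → ℝ, ∀ i, w i = v i - if 0 = i then c else 0 :=
    ⟨_, fun _ => rfl⟩
  obtain ⟨s, hs⟩ : ∃ s, s = ∑ i, w i * w i := ⟨_, rfl⟩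
  have s2 : s = -(2 * c * w 0) := by
    simp only [hs, hw, mul_sub, sub_mul, sum_sub_distrib, mul_ite, ite_mul, mul_zero, zero_mul,
      sum_ite_eq, mem_univ, if_true]
    simp only [← sq, ← c2]
    ring
  have k1 : ∀ i, 2 / s * (s / 2) * w i = w i := fun i => by
    by_cases h : s = 0
    · have : w i * w i = 0 :=
        (sum_eq_zero_iff_of_nonneg fun _ _ => mul_self_nonneg _).1 (hs ▸ h) i (mem_univ _)
      rw [mul_self_eq_zero.1 this, mul_zero]
    · field_simp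
  refine ⟨fun a b => (if a = b then 1 else 0) - 2 / s * (w a * w b), fun a b => ?_,
    fun a b => ?_, fun x => ?_⟩
  · simp only [eq_comm (a := a), mul_comm (w a)]
  · have e : ∑ i, 2 / s * (w a * w i) * (2 / s * (w b * w i)) = (2 / s) ^ 2 * w a * w b * s := by
      conv_rhs => rw [hs, mul_sum, ← hs]
      exact sum_congr rfl fun i _ => by ring
    simp only [mul_sub, sub_mul, sum_sub_distrib, mul_ite, ite_mul, mul_zero, zero_mul, mul_one,
      one_mul, sum_ite_eq, mem_univ, if_true, e]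
    linear_combination (2 * (2 / s) * w b) * k1 a
  · rw [mul_sum]
    refine sum_congr rfl fun i _ => ?_
    have h1 := k1 i
    have h2 := hw i
    have h3 : s / 2 = -(c * w 0) := by rw [s2]; ring
    rw [h3] at h1
    beta_reduce
    split_ifs at h2 ⊢
    · linear_combination (-x i) * h2 - x i * h1
    · linear_combination (-x i) * h2 - x i * h1

lemma rot {n : ℕ} (A B : ℝ) (v : Fin (n + 1) → ℝ) :
    gI _ (Bad (n + 1) A B v) ≤
      gI _ (Bad (n + 1) A B fun i => if i = 0 then √(∑ i, v i ^ 2) else 0) := by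
  obtain ⟨O, h1, h2, h3⟩ := house v
  have mp := mp_orth (α := Fin (n + 1) × Fin (n + 1))
    (fun (b : Fin (n + 1) × Fin (n + 1)) a => O b.1 a.1 * O b.2 a.2) fun b b' => by
      simp only [Fintype.sum_prod_type, mul_mul_mul_comm (O b.1 _), ← mul_sum, ← sum_mul, h2,
        Prod.ext_iff]
      split_ifs <;> simp_all
  refine le_trans (measure_mono ?_) (mp.measure_preimage_le _)
  rintro M ⟨x, hx⟩
  have inv : ∀ i, ∑ a, O a i * ∑ j, O a j * x j = x i := fun i => by
    simp only [mul_sum, ← mul_assoc]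
    rw [sum_comm]
    simp only [← sum_mul, h1 _ i]
    simp only [fun a j => h1 a j, h2, ite_mul, one_mul, zero_mul, sum_ite_eq, mem_univ, if_true]
  refine ⟨fun a => ∑ j, O a j * x j, ?_⟩
  have e1 : ∑ a, (∑ j, O a j * x j) ^ 2 = ∑ i, x i ^ 2 := by
    have : ∑ i, x i ^ 2 = ∑ i, ∑ a, O a i * (∑ j, O a j * x j) * x i :=
      sum_congr rfl fun i _ => by rw [← sum_mul, inv, sq]
    rw [this, sum_comm]
    refine sum_congr rfl fun a _ => ?_
    rw [sq, mul_sum]
    exact sum_congr rfl fun i _ => by ring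
  have e2 : ∑ a, ∑ b, (∑ p : Fin (n + 1) × Fin (n + 1), O a p.1 * O b p.2 * M p) *
      (∑ j, O a j * x j) * (∑ j, O b j * x j) = ∑ i, ∑ j, M (i, j) * x i * x j := by
    rw [← Fintype.sum_prod_type', ← Fintype.sum_prod_type']
    generalize (fun a => ∑ j, O a j * x j) = z at inv
    simp only [sum_mul]
    rw [sum_comm]
    refine sum_congr rfl fun p _ => ?_
    rw [← inv p.1, ← inv p.2, mul_assoc, sum_mul_sum, ← Fintype.sum_prod_type', mul_sum]
    exact sum_congr rfl fun q _ => by ring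
  simp only [ite_mul, zero_mul, sum_ite_eq', mem_univ, if_true, ← h3, e1, e2]
  exact hx

/-- indicator rows -/
def ee {α : Type} [DecidableEq α] (p q : α) : ℝ := if p = q then 1 else 0

lemma ee_sum {α : Type} [Fintype α] [DecidableEq α] (p : α) (y : α → ℝ) :
    ∑ q, ee p q * y q = y p := by simp [ee]

/-- the splitting of a matrix -/
noncomputable def LL (n : ℕ) :
    Option (Fin n) ⊕ Fin n × Fin n → Fin (n + 1) × Fin (n + 1) → ℝ
  | .inl none, q => ee (0, 0) q
  | .inl (some b), q => (√2)⁻¹ * (ee (0, b.succ) q + ee (b.succ, 0) q)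
  | .inr p, q => ee (p.1.succ, p.2.succ) q

lemma LL_sum (n : ℕ) (y : Fin (n + 1) × Fin (n + 1) → ℝ) :
    ∑ q, LL n (.inl none) q * y q = y (0, 0) ∧
    (∀ b, ∑ q, LL n (.inl (some b)) q * y q = (√2)⁻¹ * (y (0, b.succ) + y (b.succ, 0))) ∧
    ∀ p, ∑ q, LL n (.inr p) q * y q = y (p.1.succ, p.2.succ) := by
  refine ⟨ee_sum _ _, fun b => ?_, fun p => ee_sum _ _⟩
  simp only [LL, mul_assoc, ← mul_sum, add_mul, sum_add_distrib, ee_sum]

lemma LL_orth (n : ℕ) (b b') : ∑ a, LL n b a * LL n b' a = if b = b' then 1 else 0 := by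
  have h2 : (√2)⁻¹ * ((√2)⁻¹ + (√2)⁻¹ : ℝ) = 1 := by
    have : (√2 : ℝ) * √2 = 2 := Real.mul_self_sqrt two_pos.le
    field_simp
    linarith
  obtain ⟨h1, h3, h4⟩ := LL_sum n (LL n b')
  rcases b with (_ | b) | b
  · rw [h1]
    rcases b' with (_ | b') | b' <;> simp [LL, ee, Fin.succ_ne_zero]
  · rw [h3]
    rcases b' with (_ | b') | b'
    · simp [LL, ee, (Fin.succ_ne_zero _).symm]
    · by_cases h : b = b'
      · simp [LL, ee, h, h2, (Fin.succ_ne_zero _).symm]
      · simp [LL, ee, h, Ne.symm h, (Fin.succ_ne_zero _).symm]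
    · simp [LL, ee]
  · rw [h4]
    rcases b' with (_ | b') | b'
    · simp [LL, ee, (Fin.succ_ne_zero _).symm]
    · simp [LL, ee, (Fin.succ_ne_zero _).symm]
    · simp [LL, ee, Prod.ext_iff, eq_comm]

lemma split {n : ℕ} {A B c : ℝ} (hB : 0 < B) (hc : c ^ 2 ≤ B ^ 2)
    {M : Fin (n + 1) × Fin (n + 1) → ℝ} (hM : M ∈ Bad (n + 1) A B fun i => if i = 0 then c else 0)
    (hA : √2 * M (0, 0) ≤ A) : (fun p : Fin n × Fin n => M (p.1.succ, p.2.succ)) ∈
      Bad n A B fun b => (√2)⁻¹ * (M (0, b.succ) + M (b.succ, 0)) := by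
  obtain ⟨x, hx⟩ := hM
  refine ⟨fun i => x i.succ, ?_⟩
  simp only [ite_mul, zero_mul, sum_ite_eq', mem_univ, if_true] at hx
  simp only [Fin.sum_univ_succ, sum_add_distrib] at hx
  have h2 : (√2 : ℝ) * √2 = 2 := Real.mul_self_sqrt two_pos.le
  have e : ∑ i : Fin n, M (0, i.succ) * x 0 * x i.succ + ∑ i : Fin n, M (i.succ, 0) * x i.succ * x 0
      = √2 * x 0 * ∑ b : Fin n, (√2)⁻¹ * (M (0, b.succ) + M (b.succ, 0)) * x b.succ := by
    rw [mul_sum, ← sum_add_distrib]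
    refine sum_congr rfl fun i _ => ?_
    field_simp
  generalize ∑ b : Fin n, (√2)⁻¹ * (M (0, b.succ) + M (b.succ, 0)) * x b.succ = G at e ⊢
  have p1 : 2 * x 0 * G ≤ B * x 0 ^ 2 + G ^ 2 / B := by
    rw [← sub_le_iff_le_add', le_div_iff₀ hB]
    nlinarith [sq_nonneg (B * x 0 - G)]
  have p2 : (c * x 0) ^ 2 / B ≤ B * x 0 ^ 2 := by
    rw [div_le_iff₀ hB]
    nlinarith [mul_le_mul_of_nonneg_right hc (sq_nonneg (x 0))]
  have p3 := mul_le_mul_of_nonneg_right hA (sq_nonneg (x 0))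
  have p4 : √2 * (∑ i : Fin n, M (0, i.succ) * x 0 * x i.succ +
      ∑ i : Fin n, M (i.succ, 0) * x i.succ * x 0) = 2 * x 0 * G := by
    rw [e]; linear_combination x 0 * G * h2
  linarith

lemma meas (n : ℕ) (A B : ℝ) : MeasurableSet {p : (Option (Fin n) → ℝ) × (Fin n × Fin n → ℝ) |
    ∑ k : Fin n, p.1 (some k) ^ 2 ≤ B ^ 2 ∧ p.2 ∈ Bad n A B fun k => p.1 (some k)} := by
  refine MeasurableSet.inter (measurableSet_le (f := fun p : (Option (Fin n) → ℝ) ×
    (Fin n × Fin n → ℝ) => ∑ k : Fin n, p.1 (some k) ^ 2) (by fun_prop) measurable_const)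
    (IsOpen.measurableSet ?_)
  change IsOpen {p : (Option (Fin n) → ℝ) × (Fin n × Fin n → ℝ) | ∃ x : Fin n → ℝ, _}
  rw [Set.ofPred_exists]
  exact isOpen_iUnion fun x => isOpen_lt (by fun_prop) (by fun_prop)

end EdgeA

open EdgeA in
theorem edge {A B : ℝ} (hB : 0 < B) {η : ENNReal} {N : ℕ}
    (hη : ∀ n ≤ N, gI (Option (Fin n))
      {y | A < √2 * y none ∨ B ^ 2 < ∑ k : Fin n, y (some k) ^ 2} ≤ η) :
    ∀ n ≤ N, ∀ v : Fin n → ℝ, ∑ i, v i ^ 2 ≤ B ^ 2 → gI (Fin n × Fin n) (Bad n A B v) ≤ n * η := by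
  intro n
  induction n with
  | zero =>
    intro _ v _
    have : Bad 0 A B v = ∅ := by simp [Bad]
    simp [this]
  | succ n ih =>
    intro hn v hv
    refine (rot A B v).trans ?_
    have mp := (measurePreserving_sumPiEquivProdPi fun _ : Option (Fin n) ⊕ Fin n × Fin n =>
      ProbabilityTheory.gaussianReal 0 1).comp (mp_orth (LL n) (LL_orth n))
    refine le_trans (measure_mono ?_) ((mp.measure_preimage_le
      (({y | A < √2 * y none ∨ B ^ 2 < ∑ k : Fin n, y (some k) ^ 2} ×ˢ Set.univ) ∪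
        {p | ∑ k : Fin n, p.1 (some k) ^ 2 ≤ B ^ 2 ∧
          p.2 ∈ Bad n A B fun k => p.1 (some k)})).trans ((measure_union_le _ _).trans ?_))
    · intro M hM
      obtain ⟨h1, h2, h3⟩ := LL_sum n M
      simp only [Set.mem_preimage, Function.comp, MeasurableEquiv.coe_sumPiEquivProdPi,
        Equiv.sumPiEquivProdPi_apply, Set.mem_union, Set.mem_prod, Set.mem_ofPred_eq,
        Set.mem_univ, and_true, h1, h2, h3]
      by_contra h
      push Not at h
      exact h.2 h.1.2 (split hB (by rwa [Real.sq_sqrt (sum_nonneg fun _ _ => sq_nonneg _)]) hM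
        h.1.1)
    · rw [Measure.prod_prod, Measure.prod_apply (meas n A B), measure_univ, mul_one, Nat.cast_succ,
        add_mul, one_mul, add_comm]
      refine add_le_add ((lintegral_mono (g := fun _ => n * η) fun y => ?_).trans (by simp))
        (hη n (by omega))
      by_cases h : ∑ k : Fin n, y (some k) ^ 2 ≤ B ^ 2
      · exact le_trans (measure_mono fun M hM => hM.2) (ih (by omega) _ h)
      · exact le_trans (measure_mono (t := ∅) fun M hM => h hM.1) (by simp)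

end Vale.Agent.P150
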