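import Vale.Agent.P150.Base

/-! Entropy (job Ent). -/

namespace Vale.Agent.P150

open Finset Function

variable {ι : Type} [Fintype ι] [DecidableEq ι] {w f : (ι → Bool) → ℝ}

namespace EntX

lemma basic {a c : ℝ} (ha : 0 < a) (hc : 0 < c) :
    0 ≤ a * (Real.log a - Real.log c) - a + c := by
  have h := Real.log_le_sub_one_of_pos (div_pos hc ha)
  rw [Real.log_div hc.ne' ha.ne'] at h
  have h2 := mul_le_mul_of_nonneg_left h ha.le
  have e : a * (c / a - 1) = c - a := by field_simp
  nlinarith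

lemma sq_le {a : ℝ} (ha : 0 < a) : (√a - 1) ^ 2 ≤ a * Real.log a - a + 1 := by
  have hs : 0 < √a := Real.sqrt_pos.2 ha
  have h := basic hs one_pos
  have e : Real.log a = 2 * Real.log √a := by
    rw [Real.log_sqrt ha.le]; ring
  have e2 : √a * √a = a := Real.mul_self_sqrt ha.le
  simp only [Real.log_one, sub_zero] at h
  have h2 := mul_nonneg hs.le h
  rw [e]
  nlinarith

end EntX

open EntX

/-- the Gibbs variational principle -/
theorem dv (hw : ∀ x, 0 < w x) (hf : ∀ x, 0 < f x) (g : (ι → Bool) → ℝ) :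
    ∑ x, w x * (f x * g x) ≤ Ent w f +
      (∑ x, w x * f x) * Real.log ((∑ x, w x * Real.exp (g x)) / ∑ x, w x) := by
  have hZ := sum_pos' hw
  have hF : 0 < ∑ x, w x * f x := sum_pos' fun x => mul_pos (hw x) (hf x)
  have hM : 0 < ∑ x, w x * Real.exp (g x) := sum_pos' fun x => mul_pos (hw x) (Real.exp_pos _)
  set Z := ∑ x, w x with hZd
  set F := ∑ x, w x * f x with hFd
  set M := ∑ x, w x * Real.exp (g x) with hMd
  have key : 0 ≤ ∑ x, w x * (f x * (Real.log (f x) - Real.log (F * Real.exp (g x) / M)) - f x +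
      F * Real.exp (g x) / M) :=
    sum_nonneg fun x _ => mul_nonneg (hw x).le
      (basic (hf x) (div_pos (mul_pos hF (Real.exp_pos _)) hM))
  have e : ∀ x, w x * (f x * (Real.log (f x) - Real.log (F * Real.exp (g x) / M)) - f x +
      F * Real.exp (g x) / M) = w x * (f x * Real.log (f x)) - w x * (f x * g x) -
      (w x * f x) * (Real.log F - Real.log M + 1) + (w x * Real.exp (g x)) * (F / M) := fun x => by
    rw [Real.log_div (mul_pos hF (Real.exp_pos _)).ne' hM.ne',
      Real.log_mul hF.ne' (Real.exp_pos _).ne', Real.log_exp]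
    ring
  simp only [e, sum_add_distrib, sum_sub_distrib, ← sum_mul] at key
  rw [← hFd, ← hMd] at key
  have e3 : M * (F / M) = F := by field_simp
  rw [Ent, ← hZd, ← hFd, Real.log_div hF.ne' hZ.ne', Real.log_div hM.ne' hZ.ne']
  nlinarith

lemma Ent_nonneg (hw : ∀ x, 0 < w x) (hf : ∀ x, 0 < f x) : 0 ≤ Ent w f := by
  have h := dv hw hf (fun _ => 0)
  simp only [mul_zero, sum_const_zero, Real.exp_zero, mul_one, div_self (sum_pos' hw).ne',
    Real.log_one, add_zero] at h
  exact h

/-- a weak form of the Pinsker inequality -/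
theorem hell (hw : ∀ x, 0 < w x) (hf : ∀ x, 0 < f x) (h1 : ∑ x, w x * f x = ∑ x, w x) :
    (∑ x, w x * |f x - 1|) ^ 2 ≤ 4 * (∑ x, w x) * Ent w f := by
  have hZ := sum_pos' hw
  have hE : Ent w f = ∑ x, w x * (f x * Real.log (f x)) := by
    rw [Ent, h1, div_self hZ.ne', Real.log_one, mul_zero, sub_zero]
  have e : ∀ x, w x * |f x - 1| = (√(w x) * |√(f x) - 1|) * (√(w x) * (√(f x) + 1)) := fun x => by
    have h2 : f x - 1 = (√(f x) - 1) * (√(f x) + 1) := by
      have := Real.mul_self_sqrt (hf x).le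
      nlinarith
    have h3 := Real.mul_self_sqrt (hw x).le
    rw [h2, abs_mul, abs_of_nonneg (a := √(f x) + 1) (by positivity)]
    calc w x * (|√(f x) - 1| * (√(f x) + 1))
        = (√(w x) * √(w x)) * (|√(f x) - 1| * (√(f x) + 1)) := by rw [h3]
      _ = _ := by ring
  have cs := Finset.sum_mul_sq_le_sq_mul_sq univ (fun x => √(w x) * |√(f x) - 1|)
    (fun x => √(w x) * (√(f x) + 1))
  simp only [e]
  refine cs.trans ?_
  have a1 : ∑ x, (√(w x) * |√(f x) - 1|) ^ 2 ≤ Ent w f := by
    have : ∑ x, (√(w x) * |√(f x) - 1|) ^ 2 ≤ ∑ x, w x * (f x * Real.log (f x) - f x + 1) :=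
      sum_le_sum fun x _ => by
        rw [mul_pow, sq_abs, Real.sq_sqrt (hw x).le]
        exact mul_le_mul_of_nonneg_left (sq_le (hf x)) (hw x).le
    refine this.trans (le_of_eq ?_)
    simp only [mul_add, mul_sub, sum_add_distrib, sum_sub_distrib, mul_one, h1, hE]
    ring
  have a2 : ∑ x, (√(w x) * (√(f x) + 1)) ^ 2 ≤ 4 * ∑ x, w x := by
    have : ∑ x, (√(w x) * (√(f x) + 1)) ^ 2 ≤ ∑ x, w x * (2 * f x + 2) :=
      sum_le_sum fun x _ => by
        rw [mul_pow, Real.sq_sqrt (hw x).le]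
        refine mul_le_mul_of_nonneg_left ?_ (hw x).le
        have := Real.mul_self_sqrt (hf x).le
        nlinarith [sq_nonneg (√(f x) - 1)]
    refine this.trans (le_of_eq ?_)
    have e5 : ∀ x, w x * (2 * f x + 2) = 2 * (w x * f x) + 2 * w x := fun x => by ring
    simp only [e5, sum_add_distrib, ← mul_sum, h1]
    ring
  have p1 : 0 ≤ ∑ x, (√(w x) * (√(f x) + 1)) ^ 2 := sum_nonneg fun _ _ => sq_nonneg _
  calc _ ≤ Ent w f * (4 * ∑ x, w x) := mul_le_mul a1 a2 p1 (Ent_nonneg hw hf)
    _ = _ := by ring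

lemma Ent_smul (hw : ∀ x, 0 < w x) (hf : ∀ x, 0 < f x) {c : ℝ} (hc : 0 < c) :
    Ent w (fun x => c * f x) = c * Ent w f := by
  have hZ := sum_pos' hw
  have hF : 0 < ∑ x, w x * f x := sum_pos' fun x => mul_pos (hw x) (hf x)
  have e1 : ∑ x, w x * (c * f x) = c * ∑ x, w x * f x := by
    rw [mul_sum]; exact sum_congr rfl fun x _ => by ring
  have e2 : ∑ x, w x * (c * f x * Real.log (c * f x)) =
      c * ∑ x, w x * (f x * Real.log (f x)) + c * Real.log c * ∑ x, w x * f x := by
    rw [mul_sum, mul_sum, ← sum_add_distrib]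
    exact sum_congr rfl fun x _ => by rw [Real.log_mul hc.ne' (hf x).ne']; ring
  unfold Ent
  rw [e1, e2, mul_div_assoc, Real.log_mul hc.ne' (div_pos hF hZ).ne']
  ring

omit [Fintype ι] in
lemma EntX.Qw_smul (w f : (ι → Bool) → ℝ) (c : ℝ) (i : ι) (x : ι → Bool) :
    Qw w i (fun x => c * f x) x = c * Qw w i f x := by
  unfold Qw; ring

lemma EntI_smul (hw : ∀ x, 0 < w x) (hf : ∀ x, 0 < f x) {c : ℝ} (hc : 0 < c) (i : ι) :
    EntI w i (fun x => c * f x) = c * EntI w i f := by
  unfold EntI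
  rw [mul_sum]
  refine sum_congr rfl fun x _ => ?_
  rw [Qw_smul, Real.log_mul hc.ne' (hf x).ne', Real.log_mul hc.ne' (Qw_pos hw hf i x).ne']
  ring

lemma AT.smul {C c : ℝ} (h : AT w C) (hc : 0 < c) : AT (fun x => c * w x) C := by
  intro f hf
  have h1 := h f hf
  have e1 : ∀ F : (ι → Bool) → ℝ, ∑ x, c * w x * F x = c * ∑ x, w x * F x := fun F => by
    rw [mul_sum]; exact sum_congr rfl fun x _ => by ring
  have eq : ∀ i x, Qw (fun x => c * w x) i f x = Qw w i f x := fun i x => by
    unfold Qw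
    rw [mul_assoc, mul_assoc, ← mul_add, ← mul_add, mul_div_mul_left _ _ hc.ne']
  have e2 : Ent (fun x => c * w x) f = c * Ent w f := by
    unfold Ent
    rw [e1, e1, ← mul_sum, mul_div_mul_left _ _ hc.ne']
    ring
  have e3 : ∀ i, EntI (fun x => c * w x) i f = c * EntI w i f := fun i => by
    unfold EntI
    simp only [eq]
    rw [e1]
  simp only [e2, e3, ← mul_sum]
  nlinarith

theorem EntI_le (hw : ∀ x, 0 < w x) (hf : ∀ x, 0 < f x) (i : ι) {c : (ι → Bool) → ℝ}
    (hc : ∀ x, 0 < c x) (hi : ∀ x b, c (update x i b) = c x) :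
    EntI w i f ≤ ∑ x, w x * (f x * (Real.log (f x) - Real.log (c x)) - f x + c x) := by
  have key : 0 ≤ ∑ x, w x * (Qw w i f x * (Real.log (Qw w i f x) - Real.log (c x)) -
      Qw w i f x + c x) :=
    sum_nonneg fun x _ => mul_nonneg (hw x).le (basic (Qw_pos hw hf i x) (hc x))
  have h1 := sum_Qw hw i f (c := fun x => Real.log (Qw w i f x) - Real.log (c x) - 1)
    (fun x b => by simp only [Qw_upd, hi])
  have e1 : ∀ x, w x * (Qw w i f x * (Real.log (Qw w i f x) - Real.log (c x)) -
      Qw w i f x + c x) = w x * (Qw w i f x * (Real.log (Qw w i f x) - Real.log (c x) - 1)) +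
      w x * c x := fun x => by ring
  simp only [e1, sum_add_distrib, h1] at key
  have e2 : ∑ x, w x * (f x * (Real.log (f x) - Real.log (c x)) - f x + c x) = EntI w i f +
      (∑ x, w x * (f x * (Real.log (Qw w i f x) - Real.log (c x) - 1)) + ∑ x, w x * c x) := by
    rw [EntI, ← sum_add_distrib, ← sum_add_distrib]
    exact sum_congr rfl fun x _ => by ring
  linarith

theorem le_EntI (hw : ∀ x, 0 < w x) (hf : ∀ x, 0 < f x) (i : ι) {g : (ι → Bool) → ℝ}
    (hg : ∀ x, 0 < g x) :
    ∑ x, w x * (f x * (Real.log (g x) - Real.log (Qw w i g x))) ≤ EntI w i f := by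
  have hq := Qw_pos hw hf i
  have hr := Qw_pos hw hg i
  have key : 0 ≤ ∑ x, w x * (f x * (Real.log (f x) - Real.log (Qw w i f x * g x / Qw w i g x)) -
      f x + Qw w i f x * g x / Qw w i g x) :=
    sum_nonneg fun x _ => mul_nonneg (hw x).le
      (basic (hf x) (div_pos (mul_pos (hq x) (hg x)) (hr x)))
  have h1 := sum_Qw hw i g (c := fun x => Qw w i f x / Qw w i g x)
    (fun x b => by simp only [Qw_upd])
  have h2 := sum_Qw hw i f (c := fun _ => 1) (fun _ _ => rfl)
  have e0 : ∀ x, w x * (Qw w i g x * (Qw w i f x / Qw w i g x)) = w x * (Qw w i f x * 1) :=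
    fun x => by have := (hr x).ne'; field_simp
  simp only [e0, h2] at h1
  have e1 : ∀ x, w x * (f x * (Real.log (f x) - Real.log (Qw w i f x * g x / Qw w i g x)) -
      f x + Qw w i f x * g x / Qw w i g x) =
      w x * (f x * (Real.log (f x) - Real.log (Qw w i f x))) -
      w x * (f x * (Real.log (g x) - Real.log (Qw w i g x))) - w x * (f x * 1) +
      w x * (g x * (Qw w i f x / Qw w i g x)) := fun x => by
    rw [Real.log_div (mul_pos (hq x) (hg x)).ne' (hr x).ne', Real.log_mul (hq x).ne' (hg x).ne']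
    ring
  simp only [e1, sum_add_distrib, sum_sub_distrib, ← h1] at key
  unfold EntI
  linarith

namespace EntX

lemma Qw_zero (h : ι → ℝ) (i : ι) (g : (ι → Bool) → ℝ) (x : ι → Bool) :
    Qw (W (fun _ _ => 0) h) i g x =
      (Real.exp (h i) * g (update x i true) + Real.exp (-h i) * g (update x i false)) /
        (Real.exp (h i) + Real.exp (-h i)) := by
  have hJ : Sym (fun (_ _ : ι) => (0 : ℝ)) := ⟨fun _ _ => rfl, fun _ => rfl⟩
  have h0 := W_pos (fun _ _ => 0) h x
  have hH : HH (fun _ _ => 0) h i x = h i := by simp [HH]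
  rw [Qw, W_upd hJ, W_upd hJ, hH]
  have p1 := Real.exp_pos (h i)
  have p2 := Real.exp_pos (-(sp (x i) * h i))
  simp only [sp_true, sp_false, one_mul, neg_mul, sub_eq_add_neg, Real.exp_add, add_mul]
  field_simp

lemma tens (h : ι → ℝ) (hf : ∀ x, 0 < f x) (S : Finset ι) :
    ∃ g : (ι → Bool) → ℝ, (∀ x, 0 < g x) ∧ (∀ i ∈ S, ∀ x b, g (update x i b) = g x) ∧
      ∑ x, W (fun _ _ => 0) h x * g x = ∑ x, W (fun _ _ => 0) h x * f x ∧
      ∑ x, W (fun _ _ => 0) h x * (f x * (Real.log (f x) - Real.log (g x))) ≤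
        ∑ i ∈ S, EntI (W (fun _ _ => 0) h) i f := by
  have hw := W_pos (ι := ι) (fun _ _ => 0) h
  induction S using Finset.induction_on with
  | empty => exact ⟨f, hf, by simp, rfl, by simp⟩
  | insert j S hj ih =>
    obtain ⟨g, g0, g1, g2, g3⟩ := ih
    refine ⟨Qw (W (fun _ _ => 0) h) j g, Qw_pos hw g0 j, ?_, ?_, ?_⟩
    · intro i hi x b
      rcases mem_insert.1 hi with rfl | hi
      · simp
      · have hij : i ≠ j := fun e => hj (e ▸ hi)
        rw [Qw_zero, Qw_zero, update_comm hij, update_comm hij, g1 i hi, g1 i hi]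
    · have := sum_Qw hw j g (c := fun _ => 1) (fun _ _ => rfl)
      simp only [mul_one] at this
      rw [this, g2]
    · rw [sum_insert hj]
      have := le_EntI hw hf j g0
      have e : ∑ x, W (fun _ _ => 0) h x * (f x * (Real.log (f x) -
          Real.log (Qw (W (fun _ _ => 0) h) j g x))) =
          ∑ x, W (fun _ _ => 0) h x * (f x * (Real.log (g x) -
          Real.log (Qw (W (fun _ _ => 0) h) j g x))) +
          ∑ x, W (fun _ _ => 0) h x * (f x * (Real.log (f x) - Real.log (g x))) := by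
        rw [← sum_add_distrib]; exact sum_congr rfl fun x _ => by ring
      linarith

lemma const_of_upd {g : (ι → Bool) → ℝ} (hg : ∀ i x b, g (update x i b) = g x) (x y : ι → Bool) :
    g x = g y := by
  have : ∀ S : Finset ι, g (S.piecewise y x) = g x := fun S => by
    induction S using Finset.induction_on with
    | empty => simp
    | insert j S hj ih => rw [piecewise_insert, hg, ih]
  simpa using (this univ).symm

end EntX

/-- product measures -/
theorem at_zero (h : ι → ℝ) : AT (W (fun _ _ => 0) h) 1 := by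
  intro f hf
  have hw := W_pos (ι := ι) (fun _ _ => 0) h
  obtain ⟨g, g0, g1, g2, g3⟩ := tens h hf univ
  have hc := const_of_upd (fun i => g1 i (mem_univ i))
  have hZ := sum_pos' hw
  have e : ∀ x, g x = (∑ x, W (fun _ _ => 0) h x * f x) / ∑ x, W (fun _ _ => 0) h x := fun x => by
    rw [← g2, eq_div_iff hZ.ne', mul_sum]
    exact sum_congr rfl fun y _ => by rw [hc y x, mul_comm]
  rw [one_mul]
  refine le_trans (le_of_eq ?_) g3
  simp only [e]
  rw [Ent, sum_mul, ← sum_sub_distrib]
  exact sum_congr rfl fun x _ => by ring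

lemma PP_pos [Nonempty ι] (hw : ∀ x, 0 < w x) (hf : ∀ x, 0 < f x) (x : ι → Bool) :
    0 < PP w f x :=
  div_pos (sum_pos (fun i _ => Qw_pos hw hf i x) univ_nonempty)
    (Nat.cast_pos.2 Fintype.card_pos)

lemma sum_PP [Nonempty ι] (hw : ∀ x, 0 < w x) (f : (ι → Bool) → ℝ) :
    ∑ x, w x * PP w f x = ∑ x, w x * f x := by
  have hn : (0 : ℝ) < Fintype.card ι := Nat.cast_pos.2 Fintype.card_pos
  have h1 : ∀ i, ∑ x, w x * Qw w i f x = ∑ x, w x * f x := fun i => by
    simpa only [mul_one] using sum_Qw hw i f (c := fun _ => 1) (fun _ _ => rfl)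
  unfold PP
  simp only [← mul_div_assoc, mul_sum, ← sum_div]
  rw [sum_comm]
  simp only [h1, sum_const, card_univ, nsmul_eq_mul]
  field_simp

/-- one step of the chain contracts the entropy -/
theorem Ent_PP [Nonempty ι] (hw : ∀ x, 0 < w x) {C : ℝ} (hC : 0 < C) (h : AT w C)
    (hf : ∀ x, 0 < f x) : Ent w (PP w f) ≤ (1 - 1 / (C * Fintype.card ι)) * Ent w f := by
  have hn : (0 : ℝ) < Fintype.card ι := Nat.cast_pos.2 Fintype.card_pos
  set n : ℝ := (Fintype.card ι : ℝ) with hnd
  have h1 : ∀ i, ∑ x, w x * (Qw w i f x * Real.log (Qw w i f x)) =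
      ∑ x, w x * (f x * Real.log (f x)) - EntI w i f := fun i => by
    rw [sum_Qw hw i f (c := fun x => Real.log (Qw w i f x)) (fun x b => by simp only [Qw_upd]),
      EntI, ← sum_sub_distrib]
    exact sum_congr rfl fun x _ => by ring
  have jen : ∀ x, PP w f x * Real.log (PP w f x) ≤
      ∑ i, (1 / n) * (Qw w i f x * Real.log (Qw w i f x)) := fun x => by
    have := Real.convexOn_mul_log.map_sum_le (t := univ) (w := fun _ : ι => 1 / n)
      (p := fun i => Qw w i f x) (fun _ _ => by positivity)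
      (by simp only [sum_const, card_univ, nsmul_eq_mul, ← hnd]; field_simp)
      (fun i _ => (Qw_pos hw hf i x).le)
    simp only [smul_eq_mul] at this
    have e : PP w f x = ∑ i, 1 / n * Qw w i f x := by
      rw [PP, ← mul_sum, ← hnd]; ring
    rw [e]; exact this
  have h2 : ∑ x, w x * (PP w f x * Real.log (PP w f x)) ≤
      ∑ x, w x * (f x * Real.log (f x)) - (1 / n) * ∑ i, EntI w i f := by
    refine (sum_le_sum fun x _ => mul_le_mul_of_nonneg_left (jen x) (hw x).le).trans (le_of_eq ?_)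
    have e : ∀ x, w x * ∑ i, (1 / n) * (Qw w i f x * Real.log (Qw w i f x)) =
        ∑ i, (1 / n) * (w x * (Qw w i f x * Real.log (Qw w i f x))) := fun x => by
      rw [mul_sum]; exact sum_congr rfl fun i _ => by ring
    simp only [e]
    rw [sum_comm]
    simp only [← mul_sum, h1, sum_sub_distrib, sum_const, card_univ, nsmul_eq_mul, ← hnd]
    field_simp
  have h3 := h f hf
  have h4 : 1 / (C * n) * Ent w f ≤ (1 / n) * ∑ i, EntI w i f := by
    calc 1 / (C * n) * Ent w f ≤ 1 / (C * n) * (C * ∑ i, EntI w i f) :=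
          mul_le_mul_of_nonneg_left h3 (by positivity)
      _ = _ := by field_simp
  have h5 : Ent w (PP w f) ≤ Ent w f - (1 / n) * ∑ i, EntI w i f := by
    unfold Ent
    rw [sum_PP hw]
    linarith
  linarith

end Vale.Agent.P150
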