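import Vale.Agent.P150.Base

/-! From the Bochner inequality to the Poincare inequality (job Gap). -/

namespace Vale.Agent.P150

open Finset Function

variable {ι : Type} [Fintype ι] [DecidableEq ι] {w : (ι → Bool) → ℝ}

/-- the Dirichlet form as a bilinear form -/
lemma dir_bil (hw : ∀ x, 0 < w x) (i : ι) (f g : (ι → Bool) → ℝ) :
    ∑ x, w x * ((f x - Qw w i f x) * (g x - Qw w i g x)) =
      ∑ x, w x * (f x * (g x - Qw w i g x)) := by
  have h := sum_Qw hw i g (c := Qw w i f) (Qw_upd w i f)
  have e : ∀ x, w x * ((f x - Qw w i f x) * (g x - Qw w i g x)) =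
      w x * (f x * (g x - Qw w i g x)) + (w x * (Qw w i g x * Qw w i f x) -
        w x * (g x * Qw w i f x)) := fun x => by ring
  simp only [e, sum_add_distrib, sum_sub_distrib, h, sub_self, add_zero]

namespace GapX

lemma dir_bil_sum (hw : ∀ x, 0 < w x) (f g : (ι → Bool) → ℝ) :
    ∑ i, ∑ x, w x * ((f x - Qw w i f x) * (g x - Qw w i g x)) =
      ∑ x, w x * (f x * ∑ i, (g x - Qw w i g x)) := by
  simp only [dir_bil hw, mul_sum]
  exact sum_comm

lemma sum_gen (hw : ∀ x, 0 < w x) (g : (ι → Bool) → ℝ) :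
    ∑ x, w x * ∑ i, (g x - Qw w i g x) = 0 := by
  simp only [mul_sum]
  rw [sum_comm]
  refine sum_eq_zero fun i _ => ?_
  have h := sum_Qw hw i g (c := fun _ => 1) fun _ _ => rfl
  simp only [mul_one] at h
  simp only [mul_sub, sum_sub_distrib, h, sub_self]

lemma const_of_upd {g : (ι → Bool) → ℝ} (h : ∀ x i b, g (update x i b) = g x) (x y : ι → Bool) :
    g x = g y := by
  have : ∀ S : Finset ι, ∀ x, (∀ i ∉ S, x i = y i) → g x = g y := fun S => by
    induction S using Finset.induction_on with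
    | empty => exact fun x hx => congrArg g (funext fun i => hx i (notMem_empty i))
    | insert i S _ ih =>
      intro x hx
      rw [← h x i (y i)]
      refine ih _ fun j hj => ?_
      by_cases hji : j = i
      · rw [hji, update_self]
      · rw [update_of_ne hji, hx j (by simp [hji, hj])]
  exact this univ x fun i hi => absurd (mem_univ i) hi

lemma const_of_dir (hw : ∀ x, 0 < w x) {g : (ι → Bool) → ℝ} (h : Dir w g = 0) (x y : ι → Bool) :
    g x = g y := by
  have p : ∀ i x, 0 ≤ w x * (g x - Qw w i g x) ^ 2 := fun i x =>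
    mul_nonneg (hw x).le (sq_nonneg _)
  have e : ∀ i x, g x = Qw w i g x := fun i x => by
    have h1 := (sum_eq_zero_iff_of_nonneg fun i _ => sum_nonneg fun x _ => p i x).1 h i (mem_univ i)
    have h2 := (sum_eq_zero_iff_of_nonneg fun x _ => p i x).1 h1 x (mem_univ x)
    exact sub_eq_zero.1 (pow_eq_zero_iff two_ne_zero |>.1 ((mul_eq_zero.1 h2).resolve_left (hw x).ne'))
  exact const_of_upd (fun x i b => by rw [e i, Qw_upd, ← e i]) x y

/-- the Poisson equation -/
lemma poisson (hw : ∀ x, 0 < w x) (f : (ι → Bool) → ℝ) :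
    ∃ g : (ι → Bool) → ℝ, ∃ c : ℝ, ∀ x, ∑ i, (g x - Qw w i g x) = f x - c := by
  let T : ((ι → Bool) → ℝ) →ₗ[ℝ] (ι → Bool) → ℝ :=
    { toFun := fun g x => ∑ i, (g x - Qw w i g x) + ∑ y, w y * g y
      map_add' := fun g k => funext fun x => by
        have e : ∀ i, g x + k x - Qw w i (g + k) x = g x - Qw w i g x + (k x - Qw w i k x) :=
          fun i => by simp only [Qw, Pi.add_apply]; ring
        simp only [Pi.add_apply, e, mul_add, sum_add_distrib]
        ring
      map_smul' := fun c g => funext fun x => by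
        have e : ∀ i, c * g x - Qw w i (c • g) x = c * (g x - Qw w i g x) :=
          fun i => by simp only [Qw, Pi.smul_apply, smul_eq_mul]; ring
        simp only [Pi.smul_apply, smul_eq_mul, e, mul_left_comm _ c, ← mul_sum, RingHom.id_apply]
        ring }
  have hZ := sum_pos' hw
  have hT : Injective T := by
    refine (injective_iff_map_eq_zero T).2 fun g hg => ?_
    have h1 : ∀ x, ∑ i, (g x - Qw w i g x) = -∑ y, w y * g y := fun x =>
      eq_neg_of_add_eq_zero_left (congrFun hg x)
    have h2 := sum_gen hw g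
    simp only [h1, ← sum_mul] at h2
    have h3 := neg_eq_zero.1 ((mul_eq_zero.1 h2).resolve_left hZ.ne')
    have h4 := dir_bil_sum hw g g
    simp only [h1, h3, neg_zero, mul_zero, sum_const_zero, ← sq] at h4
    funext x
    rw [sum_congr rfl fun y _ => by rw [const_of_dir hw h4 y x], ← sum_mul] at h3
    exact (mul_eq_zero.1 h3).resolve_left hZ.ne'
  obtain ⟨g, hg⟩ := LinearMap.injective_iff_surjective.1 hT f
  exact ⟨g, _, fun x => eq_sub_of_add_eq (congrFun hg x)⟩

end GapX

open GapX in

theorem pi_of_boch (hw : ∀ x, 0 < w x) {γ : ℝ}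
    (h : ∀ f, γ * Dir w f ≤ ∑ x, w x * (∑ i, (f x - Qw w i f x)) ^ 2) : PI w γ := by
  intro f
  obtain ⟨g, c, hg⟩ := poisson hw f
  have hZ := sum_pos' hw
  have h1 := h g
  have h2 := sum_gen hw g
  have h3 := dir_bil_sum hw f g
  simp only [hg] at h1 h2 h3
  simp only [mul_sub, sum_sub_distrib, ← sum_mul] at h2
  have v1 : Var w f = ∑ x, w x * (f x * (f x - c)) := by
    rw [Var, sub_eq_zero.1 h2, sq (_ * c), mul_assoc, mul_div_cancel_left₀ _ hZ.ne',
      ← sub_eq_zero.1 h2, mul_sum, ← sum_sub_distrib]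
    exact sum_congr rfl fun x _ => by ring
  have v2 : ∑ x, w x * (f x - c) ^ 2 = Var w f := by
    have e : ∀ x, w x * (f x - c) ^ 2 = w x * (f x * (f x - c)) - (w x * f x - w x * c) * c :=
      fun x => by ring
    simp only [v1, e, sum_sub_distrib, ← sum_mul, h2, zero_mul, sub_zero]
  have p1 : 0 ≤ Var w f := v2 ▸ sum_nonneg fun x _ => mul_nonneg (hw x).le (sq_nonneg _)
  rcases le_total γ 0 with hγ | hγ
  · exact (mul_nonpos_of_nonpos_of_nonneg hγ p1).trans
      (sum_nonneg fun i _ => sum_nonneg fun x _ => mul_nonneg (hw x).le (sq_nonneg _))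
  have h4 : 2 * γ * Var w f ≤ Dir w f + γ * (γ * Dir w g) := by
    rw [v1, ← h3]
    simp only [Dir, mul_sum, ← sum_add_distrib]
    refine sum_le_sum fun i _ => sum_le_sum fun x _ => ?_
    nlinarith [mul_nonneg (hw x).le (sq_nonneg (f x - Qw w i f x - γ * (g x - Qw w i g x)))]
  rw [v2] at h1
  linarith [mul_le_mul_of_nonneg_left h1 hγ]

end Vale.Agent.P150
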