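import Vale.Agent.P150.Chan
import Vale.Agent.P150.Cov
import Vale.Agent.P150.Gap

/-! Approximate tensorisation for good couplings (job Fact). -/

namespace Vale.Agent.P150

open Finset Function

variable {ι : Type} [Fintype ι] [DecidableEq ι] {J : ι → ι → ℝ} {lam δ : ℝ}

theorem pi_good (hJ : Good lam δ J) (h1 : lam ≤ 1) (hδ : δ ≤ 1 / 4) (h : ι → ℝ) :
    PI (W J h) (1 - lam - 101 * δ) :=
  pi_of_boch (W_pos J h) (bochner hJ h1 hδ h)

open scoped MatrixOrder in
lemma exists_root (hJ : Good lam δ J) : ∃ B : ι → ι → ℝ, ∀ u : ι → ℝ,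
    ∑ k, (∑ i, B k i * u i) ^ 2 = ∑ i, ∑ j, J i j * u i * u j + ∑ i, u i ^ 2 := by
  have q : ∀ u : ι → ℝ, u ⬝ᵥ (Matrix.of J + 1).mulVec u =
      ∑ i, ∑ j, J i j * u i * u j + ∑ i, u i ^ 2 := fun u => by
    rw [Matrix.add_mulVec, Matrix.one_mulVec, dotProduct_add]
    simp only [dotProduct, Matrix.mulVec, Matrix.of_apply, mul_sum, sq, mul_assoc, mul_left_comm]
  have hA : (Matrix.of J + 1).PosSemidef := by
    refine .of_dotProduct_mulVec_nonneg (.add ?_ Matrix.isHermitian_one) fun u => ?_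
    · ext i j
      simpa using hJ.sym.symm j i
    · rw [star_trivial, q]
      linarith [hJ.lo u]
  obtain ⟨B, hB⟩ := CStarAlgebra.nonneg_iff_eq_star_mul_self.mp hA.nonneg
  refine ⟨B, fun u => ?_⟩
  rw [← q, hB, ← Matrix.mulVec_mulVec, Matrix.dotProduct_mulVec, Matrix.star_eq_conjTranspose,
    Matrix.conjTranspose_eq_transpose_of_trivial, Matrix.vecMul_transpose]
  simp only [dotProduct, Matrix.mulVec, sq]

theorem at_good (hJ : Good lam δ J) (h0 : 0 ≤ lam) (h1 : lam ≤ 1) (hδ : δ ≤ 1 / 4)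
    (hγ : 0 < 1 - lam - 101 * δ) (h : ι → ℝ) :
    AT (W J h) (Real.exp (2 * (8 * (1 / (1 - lam - 101 * δ)) + 2))) := by
  obtain ⟨B, hB⟩ := exists_root hJ
  have hB2 : ∀ u : ι → ℝ, ∑ k, (∑ i, B k i * u i) ^ 2 ≤ 2 * ∑ i, u i ^ 2 := fun u => by
    have := mul_le_mul_of_nonneg_right h1 (sum_nonneg fun i (_ : i ∈ univ) => sq_nonneg (u i))
    linarith [hB u, hJ.up u]
  have hK : 0 ≤ 1 / (1 - lam - 101 * δ) := by positivity
  have hE : ∀ s, 0 ≤ s → s ≤ 1 → ∀ h, ES (W (fun i j => s * J i j) h) (1 / (1 - lam - 101 * δ)) :=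
    fun s a b => es_of_pi (hJ.smul h0 a b).sym hγ (pi_good (hJ.smul h0 a b) h1 hδ)
  generalize 1 / (1 - lam - 101 * δ) = K at hK hE ⊢
  obtain ⟨m, hm⟩ := exists_nat_ge (256 * (Fintype.card ι : ℝ) ^ 2 + 2 * (8 * K + 2))
  have m0 : (0 : ℝ) < m := lt_of_lt_of_le (by positivity) hm
  have hu : (8 * K + 2) * (1 / m) ≤ 1 / 2 := by
    rw [mul_one_div, div_le_iff₀ m0]
    linarith [sq_nonneg (Fintype.card ι : ℝ)]
  have key : ∀ k : ℕ, k ≤ m → ∀ h, AT (W (fun i j => k / m * J i j) h)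
      (Real.exp (2 * (8 * K + 2) * (k / m))) := fun k => by
    induction k with
    | zero => simpa using at_zero
    | succ k ih =>
      intro hk h f hf
      have h2 := chan (J' := fun i j => (k + 1 : ℕ) / m * J i j) (ε := 1 / m) hB hB2
        (by positivity) (by rw [mul_one_div, div_le_one m0]; linarith) hK (Real.exp_pos _).le
        (fun h => by
          have e : (fun i j => (k + 1 : ℕ) / m * J i j - 1 / m * J i j) =
            fun i j => (k : ℝ) / m * J i j := by ext i j; push_cast; ring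
          exact e ▸ ih (by omega) h)
        (hE _ (by positivity) ((div_le_one m0).2 (by exact_mod_cast hk)) h) hf
      have h3 := Ent_nonneg (W_pos (fun i j => (k + 1 : ℕ) / m * J i j) h) hf
      have h4 : 0 ≤ (8 * K + 2) * (1 / m) := by positivity
      rw [show 2 * (8 * K + 2) * ((k + 1 : ℕ) / m) = 2 * ((8 * K + 2) * (1 / m)) +
        2 * (8 * K + 2) * (k / m) by push_cast; ring, Real.exp_add, mul_assoc]
      refine le_trans ?_ (mul_le_mul_of_nonneg_left h2 (Real.exp_pos _).le)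
      generalize (8 * K + 2) * (1 / m) = u at hu h4 ⊢
      rw [← mul_assoc]
      refine le_mul_of_one_le_left h3 ?_
      nlinarith [mul_le_mul_of_nonneg_right (Real.add_one_le_exp (2 * u))
        (show 0 ≤ 1 - u by linarith)]
  simpa only [div_self m0.ne', one_mul, mul_one] using key m le_rfl h

end Vale.Agent.P150
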