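import Vale.Agent.P150.Ent

/-! Mixing of the continuous-time chain (job Mix). -/

namespace Vale.Agent.P150

open Finset Function

variable {ι : Type} [Fintype ι] [DecidableEq ι] {w : (ι → Bool) → ℝ}

namespace MixX

lemma symm_PP (hw : ∀ x, 0 < w x) (f g : (ι → Bool) → ℝ) :
    ∑ x, w x * (f x * PP w g x) = ∑ x, w x * (g x * PP w f x) := by
  have key : ∀ f g : (ι → Bool) → ℝ, ∑ x, w x * (f x * PP w g x) =
      (∑ i, ∑ x, w x * (Qw w i f x * Qw w i g x)) / Fintype.card ι := fun f g => by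
    simp only [sum_Qw hw _ f (Qw_upd w _ g)]
    rw [sum_comm, sum_div]
    refine sum_congr rfl fun x _ => ?_
    rw [PP, ← mul_sum, ← mul_sum]
    ring
  rw [key, key]
  simp only [mul_comm (Qw w _ f _)]

lemma symm_pow (hw : ∀ x, 0 < w x) {P : Matrix (ι → Bool) (ι → Bool) ℝ}
    (hP : ∀ f, P.mulVec f = PP w f) (k : ℕ) (f g : (ι → Bool) → ℝ) :
    ∑ x, w x * (f x * (P ^ k).mulVec g x) = ∑ x, w x * (g x * (P ^ k).mulVec f x) := by
  induction k generalizing f with
  | zero => simp only [pow_zero, Matrix.one_mulVec, mul_comm (f _)]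
  | succ k ih =>
    conv_lhs => rw [pow_succ', ← Matrix.mulVec_mulVec, hP, symm_PP hw]
    conv_rhs => rw [pow_succ, ← Matrix.mulVec_mulVec, hP, ← ih]
    simp only [mul_comm (PP w f _)]

lemma rev (hw : ∀ x, 0 < w x) {P : Matrix (ι → Bool) (ι → Bool) ℝ}
    (hP : ∀ f, P.mulVec f = PP w f) (k : ℕ) (x y : ι → Bool) :
    w x * (P ^ k) x y = w y * (P ^ k) y x := by
  have h := symm_pow hw hP k (Pi.single x 1) (Pi.single y 1)
  simpa [Pi.single_apply] using h

lemma pow_one' [Nonempty ι] (hw : ∀ x, 0 < w x) {P : Matrix (ι → Bool) (ι → Bool) ℝ}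
    (hP : ∀ f, P.mulVec f = PP w f) (k : ℕ) : (P ^ k).mulVec (fun _ => 1) = fun _ => 1 := by
  induction k with
  | zero => simp
  | succ k ih =>
    rw [pow_succ', ← Matrix.mulVec_mulVec, ih, hP]
    funext x
    have h1 : ∀ i, Qw w i (fun _ => 1) x = 1 := fun i => by
      simp only [Qw, mul_one]
      exact div_self (add_pos (hw _) (hw _)).ne'
    simp [PP, h1]

lemma ent_pow [Nonempty ι] (hw : ∀ x, 0 < w x) {C : ℝ} (hC : 1 ≤ C) (h : AT w C)
    {P : Matrix (ι → Bool) (ι → Bool) ℝ} (hP : ∀ f, P.mulVec f = PP w f) {f : (ι → Bool) → ℝ}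
    (hf : ∀ x, 0 < f x) (k : ℕ) :
    (∀ x, 0 < (P ^ k).mulVec f x) ∧ ∑ x, w x * (P ^ k).mulVec f x = ∑ x, w x * f x ∧
      Ent w ((P ^ k).mulVec f) ≤ (1 - 1 / (C * Fintype.card ι)) ^ k * Ent w f := by
  have hn : (1 : ℝ) ≤ Fintype.card ι := by exact_mod_cast Fintype.card_pos
  have hr : 0 ≤ 1 - 1 / (C * Fintype.card ι) := by
    rw [sub_nonneg, div_le_one (by positivity)]
    nlinarith
  induction k with
  | zero => simpa using hf
  | succ k ih =>
    rw [pow_succ', ← Matrix.mulVec_mulVec, hP]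
    refine ⟨PP_pos hw ih.1, by rw [sum_PP hw, ih.2.1],
      (Ent_PP hw (by linarith) h ih.1).trans ?_⟩
    rw [pow_succ', mul_assoc]
    exact mul_le_mul_of_nonneg_left ih.2.2 hr

open scoped Matrix.Norms.Operator in
lemma hasSum_exp {Ω : Type} [Fintype Ω] [DecidableEq Ω] (P : Matrix Ω Ω ℝ) :
    HasSum (fun k : ℕ => ((k.factorial : ℝ)⁻¹) • P ^ k) (NormedSpace.exp P) :=
  NormedSpace.exp_series_hasSum_exp' P

end MixX

/-- the discrete chain -/
theorem mix_disc [Nonempty ι] (hw : ∀ x, 0 < w x) {C A : ℝ} (hC : 1 ≤ C) (h : AT w C)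
    {P : Matrix (ι → Bool) (ι → Bool) ℝ} (hP : ∀ f, P.mulVec f = PP w f) (x : ι → Bool)
    (hA : ∑ y, w y ≤ Real.exp A * w x) (k : ℕ) :
    ∑ y, |(P ^ k) x y - w y / ∑ z, w z| ≤ 4 * √A * (1 - 1 / (2 * C * Fintype.card ι)) ^ k := by
  have hZ := sum_pos' hw
  set Z := ∑ y, w y with hZd
  have hx := hw x
  have h1 : 1 ≤ Z / w x := by
    rw [le_div_iff₀ hx, one_mul]
    exact single_le_sum (fun y _ => (hw y).le) (mem_univ x)
  have h2 : Z / w x ≤ Real.exp A := by rwa [div_le_iff₀ hx]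
  have hA0 : 0 ≤ A := by
    rw [← Real.one_le_exp_iff]
    linarith
  set f : (ι → Bool) → ℝ := (Z / w x / 2) • Pi.single x 1 + (1 / 2 : ℝ) • fun _ => 1 with hf
  have hfy : ∀ y, 0 < f y ∧ f y ≤ Real.exp A := fun y => by
    simp only [hf, Pi.add_apply, Pi.smul_apply, Pi.single_apply, smul_eq_mul]
    split_ifs
    · constructor <;> linarith
    · constructor <;> linarith
  have hfs : ∑ y, w y * f y = Z := by
    simp only [hf, Pi.add_apply, Pi.smul_apply, Pi.single_apply, smul_eq_mul, mul_add,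
      sum_add_distrib, mul_ite, mul_zero, sum_ite_eq', mem_univ, if_true, mul_one, ← sum_mul]
    field_simp
    ring
  have hE : Ent w f ≤ Z * A := by
    rw [Ent, hfs, div_self hZ.ne', Real.log_one, mul_zero, sub_zero, ← hfs, sum_mul]
    refine sum_le_sum fun y _ => ?_
    rw [mul_assoc]
    exact mul_le_mul_of_nonneg_left (mul_le_mul_of_nonneg_left
      ((Real.log_le_iff_le_exp (hfy y).1).2 (hfy y).2) (hfy y).1.le) (hw y).le
  obtain ⟨h3, h4, h5⟩ := MixX.ent_pow hw hC h hP (fun y => (hfy y).1) k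
  have h6 := hell hw h3 (h4.trans hfs)
  have h7 : ∀ y, w y * |(P ^ k).mulVec f y - 1| = Z / 2 * |(P ^ k) x y - w y / Z| := fun y => by
    rw [hf, Matrix.mulVec_add, Matrix.mulVec_smul, Matrix.mulVec_smul, MixX.pow_one' hw hP]
    simp only [Pi.add_apply, Pi.smul_apply, smul_eq_mul, Matrix.mulVec_single_one,
      Matrix.col_apply]
    rw [← abs_of_pos (hw y), ← abs_mul, ← abs_of_pos (half_pos hZ), ← abs_mul, abs_of_pos (hw y)]
    congr 1
    have e := MixX.rev hw hP k x y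
    field_simp
    linear_combination (-Z) * e
  simp only [h7, ← mul_sum] at h6
  have hn : (1 : ℝ) ≤ Fintype.card ι := by exact_mod_cast Fintype.card_pos
  have hCn : 1 ≤ C * Fintype.card ι := by nlinarith
  have hr : 0 ≤ 1 - 1 / (C * Fintype.card ι) := by
    rwa [sub_nonneg, div_le_one (by positivity)]
  have hq : 0 ≤ 1 - 1 / (2 * C * Fintype.card ι) := by
    rw [sub_nonneg, div_le_one (by positivity)]
    linarith
  have h8 : (1 - 1 / (C * Fintype.card ι)) ^ k ≤
      ((1 - 1 / (2 * C * Fintype.card ι)) ^ k) ^ 2 := by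
    rw [← pow_mul, mul_comm k, pow_mul]
    refine pow_le_pow_left₀ hr ?_ k
    have e : 1 / (C * Fintype.card ι) = 2 * (1 / (2 * C * Fintype.card ι)) := by field_simp
    rw [e]
    nlinarith [sq_nonneg (1 / (2 * C * Fintype.card ι))]
  refine abs_le_of_sq_le_sq' ?_ (by positivity) |>.2
  have h9 := h5.trans ((mul_le_mul_of_nonneg_left hE (pow_nonneg hr k)).trans
    (mul_le_mul_of_nonneg_right h8 (by positivity)))
  have h10 := h6.trans (mul_le_mul_of_nonneg_left h9 (by positivity))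
  rw [mul_pow, mul_pow, Real.sq_sqrt hA0]
  have hZ2 : 0 < Z ^ 2 := by positivity
  refine le_of_mul_le_mul_left ?_ hZ2
  nlinarith

/-- Poisson averaging -/
theorem mix_cont {Ω : Type} [Fintype Ω] [DecidableEq Ω] {P : Matrix Ω Ω ℝ} {π : Ω → ℝ} {x : Ω}
    {a q : ℝ} (h : ∀ k : ℕ, ∑ y, |(P ^ k) x y - π y| ≤ a * q ^ k) {s : ℝ} (hs : 0 ≤ s) :
    ∑ y, |NormedSpace.exp (s • (P - 1)) x y - π y| ≤ a * Real.exp (-(s * (1 - q))) := by
  have e1 : NormedSpace.exp (s • (P - 1)) = Real.exp (-s) • NormedSpace.exp (s • P) := by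
    have e2 : s • (P - 1) = Matrix.diagonal (fun _ => -s) + s • P := by
      rw [← Matrix.smul_one_eq_diagonal, smul_sub, neg_smul]
      abel
    rw [e2, Matrix.exp_add_of_commute, Matrix.exp_diagonal,
      Matrix.smul_eq_diagonal_mul _ (Real.exp (-s)), Pi.exp_def, Real.exp_eq_exp_ℝ]
    rw [← Matrix.smul_one_eq_diagonal]
    exact ((Commute.one_left _).smul_left _)
  have hr : ∀ t : ℝ, HasSum (fun k : ℕ => ((k.factorial : ℝ)⁻¹) * t ^ k) (Real.exp t) := fun t => by
    rw [Real.exp_eq_exp_ℝ]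
    exact NormedSpace.exp_series_hasSum_exp' (𝕂 := ℝ) t
  set E := NormedSpace.exp (s • P) with hE
  have h1 : ∀ y, HasSum (fun k : ℕ => ((k.factorial : ℝ)⁻¹) * s ^ k * ((P ^ k) x y - π y))
      (E x y - Real.exp s * π y) := fun y => by
    have h2 := Pi.hasSum.1 (Pi.hasSum.1 (MixX.hasSum_exp (s • P)) x) y
    have e : (fun k : ℕ => ((k.factorial : ℝ)⁻¹) * s ^ k * ((P ^ k) x y - π y)) = fun k : ℕ =>
        (((k.factorial : ℝ)⁻¹) • (s • P) ^ k) x y - ((k.factorial : ℝ)⁻¹) * s ^ k * π y := by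
      funext k
      simp only [smul_pow, Matrix.smul_apply, smul_eq_mul]
      ring
    rw [e]
    exact h2.sub ((hr s).mul_right (π y))
  have h3 := hasSum_sum (s := univ) fun y _ =>
    (h1 y).mul_left (SignType.sign (E x y - Real.exp s * π y) : ℝ)
  simp only [sign_mul_self] at h3
  have h4 := hasSum_le (fun k => ?_) h3 ((hr (s * q)).mul_left a)
  · have h5 : ∀ y, |NormedSpace.exp (s • (P - 1)) x y - π y| =
        Real.exp (-s) * |E x y - Real.exp s * π y| := fun y => by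
      rw [e1, Matrix.smul_apply, smul_eq_mul, ← abs_of_pos (Real.exp_pos (-s)), ← abs_mul,
        abs_of_pos (Real.exp_pos (-s)), mul_sub, ← mul_assoc, ← Real.exp_add, neg_add_cancel,
        Real.exp_zero, one_mul]
    simp only [h5, ← mul_sum]
    refine (mul_le_mul_of_nonneg_left h4 (Real.exp_pos _).le).trans (le_of_eq ?_)
    rw [mul_left_comm, ← Real.exp_add]
    congr 2
    ring
  · have hc : 0 ≤ ((k.factorial : ℝ)⁻¹) * s ^ k := by positivity
    calc _ ≤ ∑ y, ((k.factorial : ℝ)⁻¹) * s ^ k * |(P ^ k) x y - π y| := by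
          refine sum_le_sum fun y _ => (le_abs_self _).trans ?_
          rw [abs_mul, abs_mul, abs_of_nonneg hc]
          refine mul_le_of_le_one_left (by positivity) ?_
          generalize SignType.sign (E x y - Real.exp s * π y) = σ
          rcases σ with _ | _ | _ <;> simp
      _ ≤ ((k.factorial : ℝ)⁻¹) * s ^ k * (a * q ^ k) := by
          rw [← mul_sum]
          exact mul_le_mul_of_nonneg_left (h k) hc
      _ = _ := by ring

end Vale.Agent.P150
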