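import Vale.Agent.P150.Fact
import Vale.Agent.P150.Mix

/-! The deterministic statement for the model (job Link). -/

namespace Vale.Agent.P150

open Finset Function

variable {n : ℕ} {β : ℝ} {g : Pr n → ℝ}

lemma sym_gs (β : ℝ) (g : Pr n → ℝ) : Sym fun i j => β / √n * gs g i j := by
  refine ⟨fun i j => ?_, fun i => by simp [gs]⟩
  rcases lt_trichotomy i j with h | rfl | h
  · simp [gs, h, h.not_gt]
  · rfl
  · simp [gs, h, h.not_gt]

lemma wt_eq (β : ℝ) (g : Pr n → ℝ) : wt β g = W (fun i j => β / √n * gs g i j) 0 := by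
  funext x
  have e : ∀ F : Fin n → Fin n → ℝ, ∑ p : Pr n, F p.1.1 p.1.2 =
      ∑ i, ∑ j, if i < j then F i j else 0 := fun F => by
    rw [← sum_product', ← sum_filter]
    exact (sum_subtype _ (by simp) fun p : Fin n × Fin n => F p.1 p.2).symm
  have e1 : ∑ p : Pr n, g p * sp (x p.1.1) * sp (x p.1.2) =
      ∑ i, ∑ j, if i < j then gs g i j * sp (x i) * sp (x j) else 0 := by
    rw [← e]
    exact sum_congr rfl fun p _ => by simp [gs, p.2]
  have e2 : ∀ i j, gs g i j * sp (x i) * sp (x j) =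
      (if i < j then gs g i j * sp (x i) * sp (x j) else 0) +
        if j < i then gs g j i * sp (x j) * sp (x i) else 0 := fun i j => by
    rcases lt_trichotomy i j with h | rfl | h
    · simp [h, h.not_gt]
    · simp [gs]
    · simp [gs, h, h.not_gt, mul_right_comm]
  have e3 : ∑ i, ∑ j, gs g i j * sp (x i) * sp (x j) =
      2 * ∑ p : Pr n, g p * sp (x p.1.1) * sp (x p.1.2) := by
    rw [e1, two_mul, sum_congr rfl fun i _ => sum_congr rfl fun j _ => e2 i j]
    simp only [sum_add_distrib]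
    rw [sum_comm (f := fun i j => if j < i then _ else _)]
  simp only [wt, W, Pi.zero_apply, zero_mul, sum_const_zero, add_zero, mul_assoc (β / √n),
    ← mul_sum, e3]
  congr 1
  ring

lemma Qk_eq (β : ℝ) (g : Pr n → ℝ) (i : Fin n) (f : (Fin n → Bool) → ℝ) :
    (Qk β g i).mulVec f = Qw (wt β g) i f := by
  funext x
  have e : fld β g i x = HH (fun i j => β / √n * gs g i j) 0 i x := by
    rw [fld, HH, sum_erase _ (by simp [gs])]
    simp only [Pi.zero_apply, zero_add, mul_sum, mul_assoc]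
  have h0 := (W_pos (fun i j => β / √n * gs g i j) 0 x).ne'
  simp only [Matrix.mulVec, dotProduct, Qk, sum_mul, ite_mul, zero_mul]
  rw [sum_comm, wt_eq, Qw, W_upd (sym_gs β g), W_upd (sym_gs β g), e, Real.cosh_eq]
  simp only [sum_ite_eq', mem_univ, if_true, Fintype.sum_bool, sub_mul, Real.exp_sub, sp_true,
    sp_false, one_mul, neg_mul]
  generalize W (fun i j => β / √n * gs g i j) 0 x = w at h0 ⊢
  generalize HH (fun i j => β / √n * gs g i j) 0 i x = H
  field_simp

namespace LinkX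

lemma wt_pos (x : Fin n → Bool) : 0 < wt β g x := Real.exp_pos _

lemma gen_eq (f : (Fin n → Bool) → ℝ) (x : Fin n → Bool) :
    (gen β g).mulVec f x = -∑ i, (f x - Qw (wt β g) i f x) := by
  simp only [gen, Matrix.sum_mulVec, Matrix.sub_mulVec, Qk_eq, Matrix.one_mulVec, Finset.sum_apply,
    Pi.sub_apply, ← sum_neg_distrib, neg_sub]

lemma sum_mu (F : (Fin n → Bool) → ℝ) :
    ∑ x, mu β g x * F x = (∑ x, wt β g x * F x) / ∑ x, wt β g x := by
  simp only [mu, sum_div, div_mul_eq_mul_div]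

lemma ray (f : (Fin n → Bool) → ℝ) : -∑ x, mu β g x * (f x * (gen β g).mulVec f x) =
    Dir (wt β g) f / ∑ x, wt β g x := by
  simp only [sum_mu, gen_eq, mul_neg, sum_neg_distrib, neg_neg, Dir, sq,
    GapX.dir_bil_sum wt_pos]

end LinkX

open LinkX

theorem gap_ge (hn : 0 < n) {γ : ℝ} (h : PI (wt β g) γ) : γ ≤ gap β g ∧ gap β g ≤ 1 := by
  have hZ := sum_pos' (wt_pos (β := β) (g := g))
  have lb : ∀ r ∈ {r | ∃ f : (Fin n → Bool) → ℝ, ∑ x, mu β g x * f x = 0 ∧
      ∑ x, mu β g x * f x ^ 2 = 1 ∧ r = -∑ x, mu β g x * (f x * (gen β g).mulVec f x)}, γ ≤ r := by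
    rintro _ ⟨f, h0, h1, rfl⟩
    rw [sum_mu, div_eq_iff hZ.ne'] at h0 h1
    have := h f
    rw [Var, h0, h1] at this
    rw [ray, le_div_iff₀ hZ]
    simpa using this
  let o : Fin n := ⟨0, hn⟩
  have m0 : ∑ x, mu β g x * sp (x o) = 0 := by
    have hi : Involutive fun (x : Fin n → Bool) i => !x i := fun x => by simp
    have e : ∀ b, sp (!b) = -sp b := fun b => by cases b <;> simp
    have := Equiv.sum_comp hi.toPerm fun x => wt β g x * sp (x o)
    simp only [Involutive.coe_toPerm, wt, e, mul_neg, neg_mul, neg_neg, sum_neg_distrib] at this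
    rw [sum_mu, div_eq_zero_iff]
    exact Or.inl (by simp only [wt]; linarith)
  have m1 : ∑ x, mu β g x * sp (x o) ^ 2 = 1 := by
    rw [sum_mu]
    simp only [sp_sq, mul_one, div_self hZ.ne']
  refine ⟨le_csInf ⟨_, _, m0, m1, rfl⟩ lb, (csInf_le ⟨γ, lb⟩ ⟨_, m0, m1, rfl⟩).trans ?_⟩
  rw [ray, div_le_one hZ, Dir, sum_eq_single o (fun i _ hi => ?_) (by simp)]
  · have e := sum_Qw (wt_pos (β := β) (g := g)) o (fun x => sp (x o))
      (Qw_upd (wt β g) o fun x => sp (x o))
    have e2 : ∀ x, wt β g x * (sp (x o) - Qw (wt β g) o (fun x => sp (x o)) x) ^ 2 ≤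
        wt β g x + 2 * (wt β g x * (Qw (wt β g) o (fun x => sp (x o)) x *
          Qw (wt β g) o (fun x => sp (x o)) x) -
          wt β g x * (sp (x o) * Qw (wt β g) o (fun x => sp (x o)) x)) := fun x => by
      have := mul_nonneg (wt_pos (β := β) (g := g) x).le
        (sq_nonneg (Qw (wt β g) o (fun x => sp (x o)) x))
      rw [sub_sq, sp_sq]
      linarith
    refine (sum_le_sum fun x _ => e2 x).trans_eq ?_
    rw [sum_add_distrib, ← mul_sum, sum_sub_distrib, e, sub_self, mul_zero, add_zero]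
  · refine sum_eq_zero fun x _ => ?_
    have : wt β g (update x i true) + wt β g (update x i false) ≠ 0 :=
      (add_pos (wt_pos _) (wt_pos _)).ne'
    simp only [Qw, update_of_ne hi.symm, ← add_mul, mul_div_cancel_left₀ _ this, sub_self]
    simp

theorem tvd_le (hn : 2 ≤ n) {lam δ C : ℝ} (hJ : Good lam δ fun i j => β / √n * gs g i j)
    (h1 : lam ≤ 1) (hC : 1 ≤ C) (h : AT (wt β g) C) {t : ℝ} (ht : 8 * C * Real.log n ≤ t)
    (x : Fin n → Bool) : tvd β g t x ≤ 1 / 4 := by
  have : Nonempty (Fin n) := ⟨⟨0, by omega⟩⟩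
  have n2 : (2 : ℝ) ≤ n := by exact_mod_cast hn
  have n0 : (0 : ℝ) < n := by linarith
  have hl : 0 ≤ Real.log n := Real.log_nonneg (by linarith)
  have t0 : 0 ≤ t := le_trans (by positivity) ht
  let P : Matrix (Fin n → Bool) (Fin n → Bool) ℝ := (n : ℝ)⁻¹ • ∑ i, Qk β g i
  have hP : ∀ f, P.mulVec f = PP (wt β g) f := fun f => funext fun x => by
    simp only [P, PP, Matrix.smul_mulVec, Matrix.sum_mulVec, Qk_eq, Pi.smul_apply,
      Finset.sum_apply, smul_eq_mul, Fintype.card_fin, inv_mul_eq_div]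
  have hg : t • gen β g = (t * n) • (P - 1) := by
    rw [mul_smul, smul_sub, smul_inv_smul₀ n0.ne', gen, sum_sub_distrib, sum_const, card_univ,
      Fintype.card_fin, Nat.cast_smul_eq_nsmul]
  have hA : ∑ y, wt β g y ≤ Real.exp (2 * n) * wt β g x := by
    have s : ∀ y : Fin n → Bool, ∑ i, sp (y i) ^ 2 = n := fun y => by simp
    have a1 : ∀ y, wt β g y ≤ Real.exp (n / 2) := fun y => by
      have := hJ.up fun i => sp (y i)
      rw [s] at this
      rw [wt_eq, W, Real.exp_le_exp]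
      simp only [Pi.zero_apply, zero_mul, sum_const_zero]
      nlinarith
    have a2 : Real.exp (-(n / 2)) ≤ wt β g x := by
      have := hJ.lo fun i => sp (x i)
      rw [s] at this
      rw [wt_eq, W, Real.exp_le_exp]
      simp only [Pi.zero_apply, zero_mul, sum_const_zero]
      linarith
    have a3 : (2 : ℝ) ^ n ≤ Real.exp n := by
      rw [← Real.exp_one_pow]
      exact pow_le_pow_left₀ two_pos.le (by linarith [Real.add_one_le_exp 1]) n
    calc ∑ y, wt β g y ≤ 2 ^ n * Real.exp (n / 2) :=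
          (sum_le_sum fun y _ => a1 y).trans_eq (by simp)
      _ ≤ Real.exp n * Real.exp (n / 2) := by gcongr
      _ = Real.exp (2 * n) * Real.exp (-(n / 2)) := by
          rw [← Real.exp_add, ← Real.exp_add]; congr 1; ring
      _ ≤ _ := by gcongr
  have h2 := mix_cont (mix_disc wt_pos hC h hP x hA) (mul_nonneg t0 n0.le)
  rw [← hg, Fintype.card_fin] at h2
  have h3 : Real.exp (-(t * n * (1 - (1 - 1 / (2 * C * n))))) ≤ 1 / n ^ 4 := by
    rw [← Real.exp_log (show (0 : ℝ) < 1 / n ^ 4 by positivity), Real.exp_le_exp, one_div,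
      one_div, Real.log_inv, Real.log_pow, neg_le_neg_iff, sub_sub_cancel, ← div_eq_mul_inv,
      le_div_iff₀ (by positivity)]
    push_cast
    nlinarith
  have h4 : √(2 * n) ≤ (n : ℝ) ^ 4 / 8 := by
    refine Real.sqrt_le_iff.2 ⟨by positivity, ?_⟩
    have := pow_le_pow_left₀ two_pos.le n2 7
    nlinarith
  rw [tvd, div_le_iff₀ two_pos]
  refine h2.trans ((mul_le_mul (mul_le_mul_of_nonneg_left h4 four_pos.le) h3 (Real.exp_pos _).le
    (by positivity)).trans_eq ?_)
  field_simp
  norm_num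

end Vale.Agent.P150
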